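import Vale.Agent.P327.Fn

/-! Cone avoidance, continuous maps, measurability. -/

namespace Vale.Agent.P327

open Filter Set Encodable Topology

theorem pre_cont (s : ℕ) : Continuous[_, ⊥] fun B : C => pre B s := by
  letI : TopologicalSpace L := ⊥
  haveI : DiscreteTopology L := ⟨rfl⟩
  refine continuous_iff_continuousAt.2 fun B => tendsto_const_nhds.congr' ?_
  filter_upwards [(cone_open B s).mem_nhds fun _ _ => rfl] with y hy
  exact (pre_congr hy).symm

theorem pre_open (s : ℕ) (P : L → Prop) : IsOpen {B : C | P (pre B s)} := by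
  letI : TopologicalSpace L := ⊥
  haveI : DiscreteTopology L := ⟨rfl⟩
  exact (isOpen_discrete {σ | P σ}).preimage (pre_cont s)

theorem J_cont : Continuous fun p : C × C => J p.1 p.2 := by
  refine continuous_pi fun n => ?_
  unfold J
  cases n.bodd <;> simp only [cond_true, cond_false] <;> fun_prop

theorem avoid {W Z : C} (h : ¬ Red W Z) : ∀ᶠ G in residual C, ¬ Red W (J Z G) := by
  simp only [red_iff (B := J Z _), not_exists]
  refine eventually_countable_forall.2 fun ⟨f, pf⟩ => ?_
  let O : Set C := {G | ∃ s, ¬ Ini (f (pre (J Z G) s)) W}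
  have hO : IsOpen O := by
    simp only [O, setOf_exists]
    exact isOpen_iUnion fun s => (pre_open s fun σ => ¬ Ini (f σ) W).preimage
      (J_cont.comp (Continuous.prodMk_right Z))
  filter_upwards [(closure_residualEq hO.isLocallyClosed).mem_iff] with G hG hc
  have h1 : G ∉ closure O := fun h2 => by
    obtain ⟨s, hs⟩ := hG.1 h2
    exact hs (hc.1 s)
  obtain ⟨n, hn⟩ := cone_sub (isClosed_closure.isOpen_compl.mem_nhds h1)
  let cand : L → ℕ → L := fun σ c => jn σ (pre G n ++ (decode c).getD [])
  have pc : Primrec₂ cand := jn_prim.comp Primrec.fst (Primrec.list_append.comp (Primrec.const _)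
    (Primrec.option_getD.comp (Primrec.decode.comp Primrec.snd) (Primrec.const _)))
  refine h (red_of_sigma (R := fun b σ m => ∃ c < σ.length, (f (cand σ c))[m]? = some b)
    (fun b => ?_) (fun b s m ⟨c, _, h2⟩ => ?_) fun m => ?_)
  · have : PrimrecRel fun (c : ℕ) (q : L × ℕ) => (f (cand q.1 c))[q.2]? = some b :=
      Primrec.eq.comp (Primrec.list_getElem?.comp (pf.comp (pc.comp (Primrec.fst.comp Primrec.snd)
        Primrec.fst)) (Primrec.snd.comp Primrec.snd)) (Primrec.const _)
    exact (this.exists_mem_list.comp (Primrec.list_range.comp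
      (Primrec.list_length.comp Primrec.fst)) Primrec.id).of_eq (by simp)
  · let τ : L := pre G n ++ (decode c).getD []
    let G' : C := fun i => τ[i]?.getD false
    have h3 : Ini τ G' := fun i b hb => by simp [G', hb]
    have h4 : G' ∉ O := fun h5 => hn G' (fun i hi => by
      simp only [G', τ]
      rw [List.getElem?_append_left (by simpa using hi), pre_get, if_pos hi]; rfl) (subset_closure h5)
    have h5 := jn_ini (ini_pre Z s) h3
    simp only [O, mem_setOf_eq, not_exists, not_not] at h4
    refine h4 (jn (pre Z s) τ).length m b ?_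
    rw [← h5.eq_pre]; exact h2
  · obtain ⟨t, ht⟩ := eventually_atTop.1 (hc.ev m)
    have e : pre G n ++ (pre G (n + t)).drop n = pre G (n + t) := by
      conv_rhs => rw [← List.take_append_drop n (pre G (n + t))]
      congr 1
      simp [pre, ← List.map_take, List.take_range]
    filter_upwards [eventually_gt_atTop (encode ((pre G (n + t)).drop n)), eventually_ge_atTop t]
      with s h1 h2
    refine ⟨_, by simpa using h1, ?_⟩
    simp only [cand, encodek, Option.getD_some, e]
    rw [(jn_ini (ini_pre Z s) (ini_pre G _)).eq_pre]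
    exact ht _ (jn_len (by simpa using h2) (by simp))

theorem cont_red {a : C → C} (ha : Continuous a) : ∃ q : C, ∀ Y, Red (a Y) (J Y q) := by
  classical
  let q : C := fun c => decide (∃ t : L × ℕ × Bool, c = encode t ∧
    ∀ Y, Ini t.1 Y → a Y t.2.1 = t.2.2)
  have hq : ∀ t : L × ℕ × Bool, q (encode t) = true ↔ ∀ Y, Ini t.1 Y → a Y t.2.1 = t.2.2 :=
    fun t => by simp only [q, decide_eq_true_eq, encode_inj, exists_eq_left']
  refine ⟨q, fun Y => red_of_sigma (R := fun b τ n => ∃ s < τ.length,
    (sndL τ)[encode ((fstL τ).take s, n, b)]? = some true) (fun b => ?_)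
    (fun b s n ⟨k, _, h⟩ => ?_) fun n => ?_⟩
  · have : PrimrecRel fun (s : ℕ) (p : L × ℕ) =>
        (sndL p.1)[encode ((fstL p.1).take s, p.2, b)]? = some true :=
      Primrec.eq.comp (Primrec.list_getElem?.comp (sndL_prim.comp (Primrec.fst.comp Primrec.snd))
        (Primrec.encode.comp ((Primrec.list_take.comp Primrec.fst
          (fstL_prim.comp (Primrec.fst.comp Primrec.snd))).pair
          ((Primrec.snd.comp Primrec.snd).pair (Primrec.const b))))) (Primrec.const _)
    exact (this.exists_mem_list.comp (Primrec.list_range.comp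
      (Primrec.list_length.comp Primrec.fst)) Primrec.id).of_eq (by simp)
  · refine (hq _).1 ((comp_snd Y q).1 s _ _ h) Y fun i c hi => (comp_fst Y q).1 s i c ?_
    rw [List.getElem?_take] at hi
    split_ifs at hi
    exact hi
  · obtain ⟨k, hk⟩ := cone_sub (U := {Y' | a Y' n = a Y n}) (x := Y)
      (((isOpen_discrete {a Y n}).preimage ((continuous_apply n).comp ha)).mem_nhds rfl)
    filter_upwards [eventually_gt_atTop k, (comp_fst Y q).2 k,
      (comp_snd Y q).ev (encode (pre Y k, n, a Y n))] with s h1 h2 h3
    refine ⟨k, by simpa using h1, ?_⟩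
    have e : (fstL (pre (J Y q) s)).take k = pre Y k := by
      rw [((comp_fst Y q).1 s).eq_pre, pre, ← List.map_take, List.take_range, min_eq_left h2, pre]
    rw [e, h3, (hq (pre Y k, n, a Y n)).2 fun Y' hY => hk Y' fun i hi => hY i _
      (by rw [pre_get, if_pos hi])]

section meas

variable {α : Type*} [MeasurableSpace α]

theorem meas_pre {b : α → C} (hb : Measurable b) (s : ℕ) (P : L → Prop) :
    MeasurableSet {x | P (pre (b x) s)} := hb (pre_open s P).measurableSet

theorem meas_J {a b : α → C} (ha : Measurable a) (hb : Measurable b) :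
    Measurable fun x => J (a x) (b x) := J_cont.measurable.comp (ha.prodMk hb)

theorem meas_comp (f : L → L) {a b : α → C} (ha : Measurable a) (hb : Measurable b) :
    MeasurableSet {x | Comp f (b x) (a x)} := by
  simp only [Comp, Ini, eventually_atTop, setOf_and, setOf_forall, setOf_exists]
  refine MeasurableSet.inter (.iInter fun s => .iInter fun i => .iInter fun c => ?_)
    (.iInter fun n => .iUnion fun m => .iInter fun s => .iInter fun _ =>
      meas_pre hb s fun σ => n ≤ (f σ).length)
  have h1 := meas_pre hb s fun σ => ¬ (f σ)[i]? = some c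
  have h2 : MeasurableSet {x | a x i = c} :=
    (measurable_pi_apply i).comp ha (measurableSet_singleton c)
  convert h1.union h2 using 1
  ext x; simp [imp_iff_not_or]

theorem meas_red {a b : α → C} (ha : Measurable a) (hb : Measurable b) :
    MeasurableSet {x | Red (a x) (b x)} := by
  simp only [red_iff, setOf_exists]
  exact .iUnion fun f => meas_comp _ ha hb

theorem meas_dec {P : α → ℕ → Prop} [∀ x n, Decidable (P x n)]
    (h : ∀ n, MeasurableSet {x | P x n}) : Measurable fun x n => decide (P x n) :=
  measurable_pi_lambda _ fun n => measurable_to_bool (by simpa [preimage] using h n)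

theorem meas_out (f : L → L) {b : α → C} (hb : Measurable b) :
    Measurable fun x => out f (b x) := by
  classical
  refine meas_dec (P := fun x n => ∃ s, (f (pre (b x) s))[n]? = some true) fun n => ?_
  simp only [setOf_exists]
  exact .iUnion fun s => meas_pre hb s fun σ => (f σ)[n]? = some true

theorem meas_ex {b : α → C} (hb : Measurable b) {P : α → C → Prop}
    (hP : MeasurableSet {p : α × C | P p.1 p.2}) :
    MeasurableSet {x | ∃ c, Red c (b x) ∧ P x c} := by
  have : {x | ∃ c, Red c (b x) ∧ P x c} = ⋃ f : Fn, {x | Comp f.1 (b x) (out f.1 (b x))} ∩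
      {x | P x (out f.1 (b x))} := by
    ext x
    simp only [mem_setOf_eq, mem_iUnion, mem_inter_iff]
    constructor
    · rintro ⟨c, h1, h2⟩
      obtain ⟨f, hf⟩ := red_iff.1 h1
      exact ⟨f, by rw [hf.out_eq]; exact ⟨hf, h2⟩⟩
    · rintro ⟨f, h1, h2⟩
      exact ⟨_, red_iff.2 ⟨f, h1⟩, h2⟩
  rw [this]
  exact .iUnion fun f => (meas_comp _ (meas_out _ hb) hb).inter
    ((measurable_id.prodMk (meas_out _ hb)) hP)

theorem meas_all {b : α → C} (hb : Measurable b) {P : α → C → Prop}
    (hP : MeasurableSet {p : α × C | P p.1 p.2}) :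
    MeasurableSet {x | ∀ c, Red c (b x) → P x c} := by
  have := (meas_ex hb (P := fun x c => ¬ P x c) hP.compl).compl
  convert this using 1
  ext x; simp

end meas

end Vale.Agent.P327
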