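import Mathlib

/-! Baire category tools: Kuratowski-Ulam, localisation, Cantor sets. -/

namespace Vale.Agent.P327

open Filter Set Topology TopologicalSpace

section ku

variable {X Y : Type*} [TopologicalSpace X] [TopologicalSpace Y]

theorem ku [SecondCountableTopology Y] {P : X × Y → Prop} (h : ∀ᶠ p in residual (X × Y), P p) :
    ∀ᶠ x in residual X, ∀ᶠ y in residual Y, P (x, y) := by
  obtain ⟨S, ho, hd, hc, hS⟩ := mem_residual_iff.1 h
  have key : ∀ D ∈ S, ∀ᶠ x in residual X, Dense {y | (x, y) ∈ D} := by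
    intro D hD
    have : ∀ V ∈ countableBasis Y, ∀ᶠ x in residual X, ∃ y ∈ V, (x, y) ∈ D := by
      intro V hV
      have h1 : IsOpen (D ∩ univ ×ˢ V) :=
        (ho D hD).inter (isOpen_univ.prod (isOpen_of_mem_countableBasis hV))
      refine mem_of_superset (residual_of_dense_open (isOpenMap_fst _ h1) ?_) ?_
      · refine dense_iff_inter_open.2 fun U hU hne => ?_
        obtain ⟨p, hp1, hp2⟩ := (hd D hD).inter_open_nonempty (U ×ˢ V)
          (hU.prod (isOpen_of_mem_countableBasis hV)) (hne.prod (nonempty_of_mem_countableBasis hV))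
        exact ⟨p.1, hp1.1, p, ⟨hp2, trivial, hp1.2⟩, rfl⟩
      · rintro _ ⟨p, ⟨h2, -, h3⟩, rfl⟩
        exact ⟨p.2, h3, h2⟩
    filter_upwards [(eventually_countable_ball (countable_countableBasis Y)).2 this] with x hx
    refine (isBasis_countableBasis Y).dense_iff.2 fun V hV _ => ?_
    obtain ⟨y, h1, h2⟩ := hx V hV
    exact ⟨y, h1, h2⟩
  filter_upwards [(eventually_countable_ball hc).2 key] with x hx
  have : ∀ D ∈ S, ∀ᶠ y in residual Y, (x, y) ∈ D := fun D hD =>
    residual_of_dense_open ((ho D hD).preimage (Continuous.prodMk_right x)) (hx D hD)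
  filter_upwards [(eventually_countable_ball hc).2 this] with y hy
  exact hS hy

theorem ex_open [BaireSpace X] {P : X → Prop} (h : ∀ᶠ x in residual X, P x) {U : Set X}
    (hU : IsOpen U) (hne : U.Nonempty) : ∃ x ∈ U, P x :=
  (dense_of_mem_residual h).inter_open_nonempty U hU hne

theorem ku' [SecondCountableTopology Y] [BaireSpace X] [BaireSpace Y] {P : X × Y → Prop}
    (hP : BaireMeasurableSet {p | P p}) (h : ∀ᶠ x in residual X, ∀ᶠ y in residual Y, P (x, y)) :
    ∀ᶠ p in residual (X × Y), P p := by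
  obtain ⟨U, hU, hE⟩ := hP.compl.residualEq_isOpen
  have hE' : ∀ᶠ p in residual (X × Y), ¬ P p ↔ p ∈ U := hE.mem_iff
  rcases U.eq_empty_or_nonempty with rfl | ⟨p, hp⟩
  · filter_upwards [hE'] with p hp
    simpa using hp
  obtain ⟨A, B, hA, hB, h1, h2, h3⟩ := isOpen_prod_iff.1 hU p.1 p.2 hp
  obtain ⟨x, hx, h4, h5⟩ := ex_open (h.and (ku hE')) hA ⟨_, h1⟩
  obtain ⟨y, hy, h6, h7⟩ := ex_open (h4.and h5) hB ⟨_, h2⟩
  exact (h7.2 (h3 ⟨hx, hy⟩) h6).elim

theorem loc0 [SecondCountableTopology X] {F : Filter X} [CountableInterFilter F] (S : X → Prop) :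
    ∃ O : Set X, IsOpen O ∧ (∀ᶠ p in F, S p → p ∉ O) ∧
      ∀ V, IsOpen V → (∀ᶠ p in F, S p → p ∉ V) → V ⊆ O := by
  let 𝒮 : Set (Set X) := {V | IsOpen V ∧ ∀ᶠ p in F, S p → p ∉ V}
  obtain ⟨T, hT, hT1, hT2⟩ := isOpen_sUnion_countable 𝒮 fun V hV => hV.1
  refine ⟨⋃₀ 𝒮, isOpen_sUnion fun V hV => hV.1, ?_, fun V h1 h2 => subset_sUnion_of_mem ⟨h1, h2⟩⟩
  rw [← hT2]
  filter_upwards [(eventually_countable_ball hT).2 fun V hV => (hT1 hV).2] with p hp hS
  rintro ⟨V, hV, h⟩
  exact hp V hV hS h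

theorem loc1 [SecondCountableTopology X] {F : Filter X} [CountableInterFilter F] {S : X → Prop}
    (h : ∃ᶠ p in F, S p) : ∃ x, S x ∧ ∀ V, IsOpen V → x ∈ V → ∃ᶠ p in F, S p ∧ p ∈ V := by
  obtain ⟨O, -, h1, h2⟩ := loc0 (F := F) S
  obtain ⟨x, hx, h3⟩ := (h.and_eventually h1).exists
  refine ⟨x, hx, fun V hV hxV => ?_⟩
  by_contra h4
  refine h3 hx (h2 V hV ?_ hxV)
  simpa [not_frequently] using h4

theorem loc [SecondCountableTopology X] {F : Filter X} [CountableInterFilter F]
    (hF : F ≤ residual X) {S R : X → Prop} (h : ∃ᶠ p in F, S p)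
    (hR : BaireMeasurableSet {p | R p}) (hSR : ∀ p, S p → R p) :
    ∃ W, IsOpen W ∧ W.Nonempty ∧ (∀ᶠ p in residual X, p ∈ W → R p) ∧
      ∀ V, IsOpen V → V.Nonempty → V ⊆ W → ∃ᶠ p in F, S p ∧ p ∈ V := by
  obtain ⟨O, hO, h1, h2⟩ := loc0 (F := F) S
  obtain ⟨U, hU, hE⟩ := hR.residualEq_isOpen
  have hE' : ∀ᶠ p in residual X, R p ↔ p ∈ U := hE.mem_iff
  have hc : ∀ᶠ p in residual X, p ∈ closure O ↔ p ∈ O :=
    (closure_residualEq hO.isLocallyClosed).mem_iff
  obtain ⟨x, hx, ⟨h3, h4⟩, h5⟩ := (h.and_eventually ((h1.and (hF hE')).and (hF hc))).exists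
  refine ⟨U ∩ (closure O)ᶜ, hU.inter isClosed_closure.isOpen_compl,
    ⟨x, h4.1 (hSR x hx), fun h6 => h3 hx (h5.1 h6)⟩, hE'.mono fun p hp h6 => hp.2 h6.1,
    fun V hV ⟨y, hy⟩ hVW => ?_⟩
  by_contra h6
  refine (hVW hy).2 (subset_closure (h2 V hV ?_ hy))
  simpa [not_frequently] using h6

theorem freq_countable {α ι : Type*} [Countable ι] {F : Filter α} [CountableInterFilter F]
    [F.NeBot] {P : ι → α → Prop} (h : ∀ a, ∃ i, P i a) : ∃ i, ∃ᶠ a in F, P i a := by
  by_contra h1
  simp only [not_exists, not_frequently] at h1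
  obtain ⟨a, ha⟩ := (eventually_countable_forall.2 h1).exists
  obtain ⟨i, hi⟩ := h a
  exact ha i hi

end ku

/-- Cantor space -/
abbrev C := ℕ → Bool

theorem res_ne : (residual C).NeBot :=
  ⟨fun h => by simpa using (dense_of_mem_residual (X := C) (s := ∅) (h ▸ mem_bot)).nonempty⟩

scoped instance : (residual C).NeBot := res_ne

scoped instance : PolishSpace C := {}

section grp

variable {G H : Type*} [AddCommGroup G] [TopologicalSpace G] [IsTopologicalAddGroup G]
  [CompactSpace G] [AddCommGroup H] [TopologicalSpace H] [IsTopologicalAddGroup H] [BaireSpace H]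
  [T2Space H]

theorem pull (f : G → H) (hadd : ∀ a b, f (a + b) = f a + f b) (hc : Continuous f)
    (hs : Function.Surjective f) (b : H) {P : H → Prop} (h : ∀ᶠ y in residual H, P y) :
    ∀ᶠ x in residual G, P (f x + b) := by
  have h1 : IsOpenMap f := (AddMonoidHom.mk' f hadd).isOpenMap_of_sigmaCompact hs hc
  exact tendsto_residual_of_isOpenMap (hc.add continuous_const)
    ((isOpenMap_add_right b).comp h1) h

end grp

theorem shift (b : C) {P : C → Prop} (h : ∀ᶠ y in residual C, P y) :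
    ∀ᶠ x in residual C, P (b + x) :=
  tendsto_residual_of_isOpenMap (continuous_const_add b) (isOpenMap_add_left b) h

/-- resampling along a direction -/
theorem kug {S : C → Prop} (hS : MeasurableSet {x | S x}) (ι : C → C)
    (hadd : ∀ a b, ι (a + b) = ι a + ι b) (hc : Continuous ι)
    (h : ∀ x, ∀ᶠ k in residual C, S (x + ι k)) : ∀ᶠ x in residual C, S x := by
  have m : Measurable fun p : C × C => p.1 + ι p.2 :=
    (continuous_fst.add (hc.comp continuous_snd)).measurable
  have h1 : ∀ᶠ p in residual (C × C), S (p.1 + ι p.2) :=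
    ku' (m hS).baireMeasurableSet (Eventually.of_forall h)
  have h2 := pull (fun p : C × C => (p.2 - ι p.1, p.1)) (fun a b => by
      simp only [Prod.fst_add, Prod.snd_add, hadd, Prod.mk_add_mk]; congr 1; abel)
    (by fun_prop) (fun q => ⟨(q.2, q.1 + ι q.2), by simp⟩) 0 h1
  obtain ⟨k, hk⟩ := (ku h2).exists
  simpa using hk

theorem ne_ev (v : C) : ∀ᶠ x in residual C, x ≠ v := by
  refine residual_of_dense_open isOpen_compl_singleton (dense_iff_closure_eq.2 ?_)
  refine eq_univ_of_forall fun x => ?_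
  by_cases hx : x = v
  swap
  · exact subset_closure hx
  subst hx
  refine mem_closure_of_tendsto (f := fun n : ℕ => Function.update x n (!x n)) (b := atTop) ?_
    (Eventually.of_forall fun n h => ?_)
  · refine tendsto_pi_nhds.2 fun i => tendsto_const_nhds.congr' ?_
    filter_upwards [eventually_gt_atTop i] with n hn
    rw [Function.update_of_ne hn.ne]
  · have := congrFun h n
    simp at this

theorem countable_ev {s : Set C} (hs : s.Countable) : ∀ᶠ x in residual C, x ∉ s := by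
  filter_upwards [(eventually_countable_ball hs).2 fun v _ => ne_ev v] with x hx h
  exact hx x h rfl

theorem cantor {S : C → Prop} (hS : MeasurableSet {x | S x}) (h : ∀ᶠ x in residual C, S x) :
    ∃ a : C → C, Continuous a ∧ Function.Injective a ∧ ∀ y, S (a y) := by
  have hu : ¬ {x | S x}.Countable := fun hc => by
    obtain ⟨x, h1, h2⟩ := (h.and (countable_ev hc)).exists
    exact h2 h1
  obtain ⟨t', ht, hP, hcl, -⟩ := hS.isClopenable
  obtain ⟨f, h1, h2, h3⟩ := @IsClosed.exists_nat_bool_injection_of_not_countable C t' hP _ hcl hu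
  exact ⟨f, continuous_le_rng ht h2, h3, fun y => h1 ⟨y, rfl⟩⟩

theorem cone_sub {U : Set C} {x : C} (hU : U ∈ 𝓝 x) :
    ∃ n, ∀ y : C, (∀ i < n, y i = x i) → y ∈ U := by
  rw [nhds_pi, Filter.mem_pi] at hU
  obtain ⟨I, hI, t, ht, h⟩ := hU
  obtain ⟨n, hn⟩ := hI.bddAbove
  refine ⟨n + 1, fun y hy => h fun i hi => ?_⟩
  rw [hy i (Nat.lt_succ_of_le (hn hi))]
  exact mem_of_mem_nhds (ht i)

theorem cone_open (x : C) (n : ℕ) : IsOpen {y : C | ∀ i < n, y i = x i} := by
  have : {y : C | ∀ i < n, y i = x i} = Set.pi (Iio n) fun i => {x i} := by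
    ext y; simp [Set.mem_pi]
  rw [this]
  exact isOpen_set_pi (finite_Iio n) fun i _ => isOpen_discrete _

end Vale.Agent.P327
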