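import Vale.Agent.P327.CA

/-! Coding a real by finitely many degrees; Borel representation of automorphisms. -/

namespace Vale.Agent.P327

open Filter Set Topology

/-- an automorphism, on representatives -/
structure Aut (p : C → C) : Prop where
  le : ∀ X Y, Red (p X) (p Y) ↔ Red X Y
  surj : ∀ Y, ∃ X, Red (p X) Y ∧ Red Y (p X)

theorem Aut.join {p : C → C} (h : Aut p) (X Y : C) : Red (p (J X Y)) (J (p X) (p Y)) := by
  obtain ⟨U, h1, h2⟩ := h.surj (J (p X) (p Y))
  exact ((h.le _ _).2 (((h.le _ _).1 ((Red.left _ _).trans h2)).join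
    ((h.le _ _).1 ((Red.right _ _).trans h2)))).trans h1

theorem Aut.join' {p : C → C} (h : Aut p) (X Y : C) : Red (J (p X) (p Y)) (p (J X Y)) :=
  ((h.le _ _).2 (Red.left _ _)).join ((h.le _ _).2 (Red.right _ _))

/-- parameters -/
abbrev Par := Fin 3 × Bool → C

/-- the ideals generated by the parameters -/
def In (t : Par) : ℕ → C → Prop
  | 0, c => Red c (t (0, false))
  | k + 1, c => Red c (t (2, k.bodd)) ∧ ∃ u, In t k u ∧ Red c (J u (t (1, k.bodd)))

/-- a bound for the ideals -/
def bnd : ℕ → Fin 3 × Bool
  | 0 => (0, false)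
  | k + 1 => (2, k.bodd)

theorem In.bound {t : Par} {k : ℕ} {c : C} (h : In t k c) : Red c (t (bnd k)) := by
  cases k
  exacts [h, h.1]

theorem In.mono {t : Par} {k : ℕ} {c c' : C} (h : In t k c) (h' : Red c' c) : In t k c' := by
  cases k
  · exact h'.trans h
  · exact ⟨h'.trans h.1, h.2.imp fun u hu => ⟨hu.1, h'.trans hu.2⟩⟩

open Classical in
/-- the decoded real -/
noncomputable def Dec (t : Par) : C := fun k => decide (∀ c, In t k c → Red c (t (0, true)))

theorem meas_in (k : ℕ) : ∀ {α : Type} [MeasurableSpace α] {t : α → Par} {c : α → C},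
    Measurable t → Measurable c → MeasurableSet {x | In (t x) k (c x)} := by
  induction k with
  | zero => exact fun ht hc => meas_red hc ((measurable_pi_apply _).comp ht)
  | succ k ih =>
    intro α _ t c ht hc
    have h1 := meas_ex ((measurable_pi_apply (bnd k)).comp ht)
      (P := fun x u => In (t x) k u ∧ Red (c x) (J u (t x (1, k.bodd))))
      ((ih (ht.comp measurable_fst) measurable_snd).inter (meas_red (hc.comp measurable_fst)
        (meas_J measurable_snd ((measurable_pi_apply _).comp (ht.comp measurable_fst)))))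
    convert (meas_red hc ((measurable_pi_apply (2, k.bodd)).comp ht)).inter h1 using 1
    ext x
    exact and_congr_right fun _ => exists_congr fun u => ⟨fun h => ⟨h.1.bound, h⟩, fun h => h.2⟩

theorem meas_imp {α : Type*} [MeasurableSpace α] {P Q : α → Prop} (hP : MeasurableSet {x | P x})
    (hQ : MeasurableSet {x | Q x}) : MeasurableSet {x | P x → Q x} := by
  convert hP.compl.union hQ using 1
  ext x; simp [imp_iff_not_or]

theorem meas_Dec : Measurable Dec := by
  classical
  refine meas_dec (P := fun (t : Par) k => ∀ c, In t k c → Red c (t (0, true))) fun k => ?_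
  convert meas_all (measurable_pi_apply (bnd k)) (P := fun (t : Par) c => In t k c →
    Red c (t (0, true))) (meas_imp (meas_in k measurable_fst measurable_snd)
    (meas_red measurable_snd ((measurable_pi_apply _).comp measurable_fst))) using 1
  ext t
  exact forall_congr' fun c => ⟨fun h _ => h, fun h h1 => h h1.bound h1⟩

theorem Aut.in_iff {p : C → C} (h : Aut p) {t t' : Par}
    (ht : ∀ i, Red (p (t i)) (t' i) ∧ Red (t' i) (p (t i))) (k : ℕ) :
    ∀ c, In t k c ↔ In t' k (p c) := by
  have key : ∀ c i, Red c (t i) ↔ Red (p c) (t' i) := fun c i =>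
    ⟨fun h1 => ((h.le _ _).2 h1).trans (ht i).1, fun h1 => (h.le _ _).1 (h1.trans (ht i).2)⟩
  induction k with
  | zero => exact fun c => key c _
  | succ k ih =>
    refine fun c => and_congr (key c _) ⟨fun ⟨u, h1, h2⟩ => ⟨p u, (ih u).1 h1, ?_⟩,
      fun ⟨u', h1, h2⟩ => ?_⟩
    · exact ((h.le _ _).2 h2).trans ((h.join _ _).trans
        ((Red.left _ _).join ((ht _).1.inr _)))
    · obtain ⟨u, h3, h4⟩ := h.surj u'
      exact ⟨u, (ih u).2 (h1.mono h3), (h.le _ _).1 (h2.trans
        (((h4.inl _).join ((ht _).2.inr _)).trans (h.join' _ _)))⟩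

theorem Aut.dec_eq {p : C → C} (h : Aut p) {t t' : Par}
    (ht : ∀ i, Red (p (t i)) (t' i) ∧ Red (t' i) (p (t i))) : Dec t = Dec t' := by
  funext k
  refine decide_eq_decide.2 ⟨fun h1 c' h2 => ?_, fun h1 c h2 => ?_⟩
  · obtain ⟨c, h3, h4⟩ := h.surj c'
    exact h4.trans (((h.le _ _).2 (h1 c ((h.in_iff ht k c).2 (h2.mono h3)))).trans (ht _).1)
  · exact (h.le _ _).1 ((h1 _ ((h.in_iff ht k c).1 h2)).trans (ht _).2)

/-- columns -/
def col (G : C) (k : ℕ) : C := fun n => G (Nat.pair k n)

/-- sums of neighbouring columns -/
def eE (ε : Bool) (G : C) : C := fun c =>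
  if c.unpair.1.bodd = ε then G c + G (Nat.pair (c.unpair.1 + 1) c.unpair.2) else false

/-- every other column -/
def fF (ε : Bool) (G : C) : C := fun c => if c.unpair.1.bodd = ε then false else G c

/-- the columns selected by `A` -/
def gG (A G : C) : C := fun c => A c.unpair.1 * G c

theorem p1 : Primrec fun c : ℕ => c.unpair.1 := Primrec.fst.comp Primrec.unpair

theorem p2 : Primrec fun c : ℕ => c.unpair.2 := Primrec.snd.comp Primrec.unpair

theorem Red.col {A B : C} (h : Red A B) (k : ℕ) : Red (col A k) B :=
  h.map (Primrec₂.natPair.comp (Primrec.const k) Primrec.id)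

theorem Red.ite {A A' B : C} (h : Red A B) (h' : Red A' B) {P : ℕ → Prop} [DecidablePred P]
    (hP : PrimrecPred P) : Red (fun n => if P n then A n else A' n) B :=
  h.zip h' (t := fun n a b => if P n then a else b) (Primrec.ite (hP.comp Primrec.fst)
    (Primrec.fst.comp Primrec.snd) (Primrec.snd.comp Primrec.snd))

theorem Red.ff (B : C) : Red (fun _ => false) B := Red.prim (Primrec.const _) B

theorem pb (ε : Bool) : PrimrecPred fun c : ℕ => c.unpair.1.bodd = ε :=
  Primrec.eq.comp (Primrec.nat_bodd.comp p1) (Primrec.const ε)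

theorem Red.eE {G B : C} (h : Red G B) (ε : Bool) : Red (eE ε G) B :=
  (h.add (h.map (Primrec₂.natPair.comp (Primrec.succ.comp p1) p2))).ite (Red.ff B) (pb ε)

theorem Red.fF {G B : C} (h : Red G B) (ε : Bool) : Red (fF ε G) B := (Red.ff B).ite h (pb ε)

theorem Red.gG {A G B : C} (h : Red A B) (h' : Red G B) : Red (gG A G) B := (h.map p1).mul h'

/-- the coding parameters -/
def par (A G : C) : Par := fun i =>
  if i.1 = 0 then (if i.2 then J A (gG A G) else J A (col G 0))
  else if i.1 = 1 then eE i.2 G else J A (fF i.2 G)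

theorem par_red {A G B : C} (h : Red A B) (h' : Red G B) (i : Fin 3 × Bool) :
    Red (par A G i) B := by
  unfold par
  split_ifs
  exacts [h.join (h.gG h'), h.join (h'.col 0), h'.eE _, h.join (h'.fF _)]

/-- sufficient genericity -/
def Good (A G : C) : Prop :=
  (∀ k c, Red c (J (J A (col G k)) (eE k.bodd G)) → Red c (J A (fF k.bodd G)) →
    Red c (J A (col G (k + 1)))) ∧ ∀ k, A k = false → ¬ Red (col G k) (J A (gG A G))

theorem Good.in_iff {A G : C} (h : Good A G) (k : ℕ) :
    ∀ c, In (par A G) k c ↔ Red c (J A (col G k)) := by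
  induction k with
  | zero => exact fun c => Iff.rfl
  | succ k ih =>
    refine fun c => ⟨fun ⟨h1, u, h2, h3⟩ => h.1 k c (h3.trans
      ((((ih u).1 h2).inl _).join (Red.right _ _))) h1, fun h1 => ⟨h1.trans ?_, _,
        (ih _).2 (Red.refl _), h1.trans ?_⟩⟩
    · refine (Red.left _ _).join ?_
      have : col G (k + 1) = col (fF k.bodd G) (k + 1) := by funext n; simp [col, fF]
      rw [this]
      exact (Red.right _ _).col _
    · refine ((Red.left _ _).inl _).join ?_
      have : col G (k + 1) = col G k + col (eE k.bodd G) k := by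
        funext n; simp [col, eE, ← add_assoc, BooleanRing.add_self]
      rw [this]
      exact ((Red.right _ _).inl _).add ((Red.right _ _).col _)

theorem Good.dec {A G : C} (h : Good A G) : Dec (par A G) = A := by
  classical
  funext k
  unfold Dec
  cases e : A k
  · exact decide_eq_false fun h1 => h.2 k e (h1 _ ((h.in_iff k _).2 (Red.right _ _)))
  · refine decide_eq_true fun c h1 => ((h.in_iff k _).1 h1).trans ((Red.left _ _).join ?_)
    have : col G k = col (gG A G) k := by funext n; simp [col, gG, e, Bool.mul_eq_and]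
    rw [this]
    exact (Red.right _ _).col _

theorem col_cont (k : ℕ) : Continuous fun G => col G k := by unfold col; fun_prop

theorem eE_cont (ε : Bool) : Continuous (eE ε) := by
  refine continuous_pi fun c => ?_
  unfold eE; split_ifs <;> fun_prop

theorem fF_cont (ε : Bool) : Continuous (fF ε) := by
  refine continuous_pi fun c => ?_
  unfold fF; split_ifs <;> fun_prop

theorem gG_cont : Continuous fun p : C × C => gG p.1 p.2 := by unfold gG; fun_prop

section

variable {α : Type} [MeasurableSpace α] {a g : α → C}

theorem meas_g1 (ha : Measurable a) (hg : Measurable g) (k : ℕ) :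
    MeasurableSet {x | ∀ c, Red c (J (J (a x) (col (g x) k)) (eE k.bodd (g x))) →
      Red c (J (a x) (fF k.bodd (g x))) → Red c (J (a x) (col (g x) (k + 1)))} :=
  meas_all (meas_J (meas_J ha ((col_cont k).measurable.comp hg)) ((eE_cont _).measurable.comp hg))
    (meas_imp (meas_red measurable_snd
      ((meas_J ha ((fF_cont _).measurable.comp hg)).comp measurable_fst))
    (meas_red measurable_snd ((meas_J ha ((col_cont _).measurable.comp hg)).comp measurable_fst)))

theorem meas_g2 (ha : Measurable a) (hg : Measurable g) (k : ℕ) :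
    MeasurableSet {x | ¬ Red (col (g x) k) (J (a x) (gG (a x) (g x)))} :=
  (meas_red ((col_cont k).measurable.comp hg)
    (meas_J ha (gG_cont.measurable.comp (ha.prodMk hg)))).compl

theorem meas_good (ha : Measurable a) (hg : Measurable g) :
    MeasurableSet {x | Good (a x) (g x)} := by
  simp only [Good, setOf_and, setOf_forall (ι := ℕ)]
  exact (MeasurableSet.iInter fun k => meas_g1 ha hg k).inter (.iInter fun k =>
    meas_imp ((measurable_pi_apply k).comp ha (measurableSet_singleton false)) (meas_g2 ha hg k))

end

theorem good_ev (A : C) : ∀ᶠ G in residual C, Good A G := by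
  refine (eventually_countable_forall.2 fun k => ?_).and (eventually_countable_forall.2 fun k => ?_)
  · let tt : ℕ → ℕ := fun m => if m.bodd = k.bodd then m + 1 else m
    let ι : C → C := fun h c =>
      if tt c.unpair.1 = k + 1 then false else h (Nat.pair (tt c.unpair.1) c.unpair.2)
    refine kug (meas_g1 measurable_const measurable_id k) ι (fun a b => funext fun c => ?_)
      (continuous_pi fun c => ?_) fun G => ?_
    · simp only [ι, Pi.add_apply]; split_ifs <;> rfl
    · simp only [ι]; split_ifs <;> fun_prop
    have e1 : ∀ h, col (G + ι h) k = col G k := fun h => by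
      funext n; simp [col, ι, tt, ← Bool.zero_eq_false]
    have e2 : ∀ h, col (G + ι h) (k + 1) = col G (k + 1) := fun h => by
      funext n; simp [col, ι, tt, ← Bool.zero_eq_false]
    have e3 : ∀ h, eE k.bodd (G + ι h) = eE k.bodd G := fun h => by
      funext c
      simp only [eE]
      split_ifs with h1
      · have : ι h c = ι h (Nat.pair (c.unpair.1 + 1) c.unpair.2) := by simp [ι, tt, h1]
        rw [Pi.add_apply, Pi.add_apply, this, add_add_add_comm, BooleanRing.add_self, add_zero]
      · rfl
    have e4 : ∀ h, Red (J A (fF k.bodd (G + ι h))) (J (J A (col G (k + 1))) (G + h)) := by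
      intro h
      refine ((Red.left _ _).inl _).join ?_
      have : fF k.bodd (G + ι h) = fF k.bodd fun c =>
          if c.unpair.1 = k + 1 then col G (k + 1) c.unpair.2 else (G + h) c := by
        funext c
        simp only [fF]
        split_ifs with h1 h2
        · rfl
        · simp [ι, tt, h2, col, ← Bool.zero_eq_false]
          rw [← h2, Nat.pair_unpair]
        · simp [ι, tt, h1, h2]
      rw [this]
      exact ((((Red.right _ _).inl _).map p2).ite (Red.right _ _)
        (Primrec.eq.comp p1 (Primrec.const _))).fF _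
    have hc : {c | Red c (J (J A (col G k)) (eE k.bodd G)) ∧
        ¬ Red c (J A (col G (k + 1)))}.Countable := (red_countable _).mono fun c hc => hc.1
    filter_upwards [(eventually_countable_ball hc).2 fun c hc => shift G (avoid hc.2)]
      with h hh c h1 h2
    rw [e1, e3] at h1
    rw [e2]
    by_contra h3
    exact hh c ⟨h1, h3⟩ (h2.trans (e4 h))
  · by_cases e : A k = false
    swap
    · exact Eventually.of_forall fun _ h => (e h).elim
    let ι : C → C := fun h c => if c.unpair.1 = k then h c.unpair.2 else false
    refine (kug (meas_g2 measurable_const measurable_id k) ι (fun a b => funext fun c => ?_)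
      (continuous_pi fun c => ?_) fun G => ?_).mono fun _ h _ => h
    · simp only [ι, Pi.add_apply]; split_ifs <;> rfl
    · simp only [ι]; split_ifs <;> fun_prop
    have e1 : ∀ h, col (G + ι h) k = col G k + h := fun h => by funext n; simp [col, ι]
    have e2 : ∀ h, gG A (G + ι h) = gG A G := fun h => by
      funext c
      simp only [gG, ι, Pi.add_apply]
      split_ifs with h1
      · simp [h1, e, Bool.mul_eq_and]
      · simp [← Bool.zero_eq_false]
    filter_upwards [shift (col G k) (countable_ev (red_countable (J A (gG A G))))] with h hh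
    rwa [id, e1, e2]

theorem Aut.borel {p : C → C} (h : Aut p) : ∃ F : (Fin 3 × Bool → Fn) → C → C,
    (∀ e, Measurable (F e)) ∧ ∀ X, ∃ e, F e X = p X := by
  have h1 : ∀ᶠ q in residual (C × C), Good q.1 q.2 :=
    ku' (meas_good measurable_fst measurable_snd).baireMeasurableSet
      (Eventually.of_forall good_ev)
  have h2 : ∀ᶠ q in residual (C × C), Good q.2 q.1 :=
    tendsto_residual_of_isOpenMap continuous_swap (Homeomorph.prodComm C C).isOpenMap h1
  obtain ⟨G, hG⟩ := (ku h2).exists
  obtain ⟨a, ha, hi, hg⟩ := cantor (meas_good measurable_id measurable_const) hG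
  obtain ⟨q, hq⟩ := cont_red ha
  have hm : MeasurableEmbedding a := ha.measurableEmbedding hi
  obtain ⟨P, -, hP⟩ := h.surj (J q G)
  refine ⟨fun e X => hm.invFun (Dec fun i => out (e i).1 (J X P)), fun e =>
    hm.measurable_invFun.comp (meas_Dec.comp (measurable_pi_lambda _ fun i =>
      meas_out _ (meas_J measurable_id measurable_const))), fun X => ?_⟩
  choose t ht using fun i => h.surj (par (a (p X)) G i)
  have h3 : ∀ i, Red (t i) (J X P) := fun i => by
    have h4 : Red (J q G) (p (J X P)) := hP.trans ((h.le _ _).2 (Red.right _ _))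
    exact (h.le _ _).1 ((ht i).1.trans (par_red ((hq _).trans
      (((h.le _ _).2 (Red.left _ _)).join ((Red.left _ _).trans h4))) ((Red.right _ _).trans h4) i))
  choose e he using fun i => red_iff.1 (h3 i)
  refine ⟨e, ?_⟩
  simp only [fun i => (he i).out_eq]
  rw [show (Dec fun i => t i) = _ from h.dec_eq ht, Good.dec (A := a _) (hg _), hm.leftInverse_invFun]

end Vale.Agent.P327
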