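import Mathlib

/-! Definitions for the rigidity problem. -/

namespace Vale.Agent.P327

open Classical in
/-- the characteristic function of a set of natural numbers -/
noncomputable def chi (A : Set ℕ) : ℕ →. ℕ := fun n => Part.some (if n ∈ A then 1 else 0)

/-- the Turing degree of a set, inside Mathlib's ordered type of degrees of oracles -/
noncomputable def deg (A : Set ℕ) : TuringDegree := toAntisymmetrization TuringReducible (chi A)

/-- the Turing degrees of subsets of `ℕ`, with the order of Turing reducibility -/
abbrev Degrees : Type := {d : TuringDegree // ∃ A : Set ℕ, deg A = d}

end Vale.Agent.P327
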