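import Vale.Agent.P327.Cat

/-! Turing functionals as primitive recursive maps on finite strings. -/

namespace Vale.Agent.P327

open Filter Set Topology

/-- finite strings -/
abbrev L := List Bool

/-- initial segment of a real -/
def pre (B : C) (s : ℕ) : L := (List.range s).map B

/-- a string is an initial segment of a real -/
def Ini (σ : L) (A : C) : Prop := ∀ i b, σ[i]? = some b → A i = b

/-- `f` computes `A` from the oracle `B` -/
def Comp (f : L → L) (B A : C) : Prop :=
  (∀ s, Ini (f (pre B s)) A) ∧ ∀ n, ∀ᶠ s in atTop, n ≤ (f (pre B s)).length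

/-- reducibility -/
def Red (A B : C) : Prop := ∃ f, Primrec f ∧ Comp f B A

theorem pre_get (B : C) (s i : ℕ) : (pre B s)[i]? = if i < s then some (B i) else none := by
  unfold pre
  split_ifs with h
  · simp [h]
  · simp [h]

@[simp] theorem pre_length (B : C) (s : ℕ) : (pre B s).length = s := by simp [pre]

theorem ini_pre (B : C) (s : ℕ) : Ini (pre B s) B := by
  intro i b h
  rw [pre_get] at h
  split_ifs at h
  simpa using h

theorem Ini.get {σ : L} {A : C} (h : Ini σ A) {i : ℕ} (hi : i < σ.length) :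
    σ[i]? = some (A i) := by
  rw [h i σ[i] (by simp [hi])]; simp [hi]

theorem Ini.eq_pre {σ : L} {A : C} (h : Ini σ A) : σ = pre A σ.length := by
  refine List.ext_getElem? fun i => ?_
  rw [pre_get]
  split_ifs with hi
  · exact h.get hi
  · simpa using hi

theorem pre_congr {A B : C} {s : ℕ} (h : ∀ i < s, A i = B i) : pre A s = pre B s :=
  List.map_congr_left fun i hi => h i (by simpa using hi)

theorem Comp.comp {f g : L → L} {A B D : C} (hg : Comp g A D) (hf : Comp f B A) :
    Comp (fun σ => g (f σ)) B D := by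
  refine ⟨fun s => ?_, fun n => ?_⟩
  · beta_reduce; rw [(hf.1 s).eq_pre]; exact hg.1 _
  · obtain ⟨m, hm⟩ := eventually_atTop.1 (hg.2 n)
    filter_upwards [hf.2 m] with s hs
    rw [(hf.1 s).eq_pre]; exact hm _ hs

theorem comp_id (A : C) : Comp id A A :=
  ⟨ini_pre A, fun n => by simpa using eventually_ge_atTop n⟩

theorem Comp.ev {f : L → L} {B A : C} (h : Comp f B A) (n : ℕ) :
    ∀ᶠ s in atTop, (f (pre B s))[n]? = some (A n) :=
  (h.2 (n + 1)).mono fun s hs => (h.1 s).get hs

/-- the longest initial run of defined values -/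
def run (φ : ℕ → Option Bool) (N : ℕ) : L :=
  (List.range ((List.range N).findIdx fun n => !(φ n).isSome)).map fun n => (φ n).getD false

theorem run_prim {α : Type} [Primcodable α] {φ : α → ℕ → Option Bool} {N : α → ℕ}
    (hφ : Primrec₂ φ) (hN : Primrec N) : Primrec fun a => run (φ a) (N a) :=
  Primrec.list_map (Primrec.list_range.comp (Primrec.list_findIdx (Primrec.list_range.comp hN)
    (Primrec.not.comp (Primrec.option_isSome.comp hφ)).to₂))
    (Primrec.option_getD.comp hφ (Primrec.const false)).to₂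

theorem run_ini {φ : ℕ → Option Bool} {A : C} (h : ∀ n b, φ n = some b → A n = b) (N : ℕ) :
    Ini (run φ N) A := by
  intro i b hi
  change (pre (fun n => (φ n).getD false) _)[i]? = _ at hi
  rw [pre_get] at hi
  split_ifs at hi with h1
  have h2 := List.not_of_lt_findIdx h1
  simp only [List.getElem_range, Bool.not_eq_eq_eq_not, Bool.not_false] at h2
  obtain ⟨c, hc⟩ := Option.isSome_iff_exists.1 h2
  rw [h i c hc]
  simpa [hc] using hi

theorem run_len {φ : ℕ → Option Bool} {m N : ℕ} (h : ∀ n < m, (φ n).isSome) (hN : m ≤ N) :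
    m ≤ (run φ N).length := by
  rw [run, List.length_map, List.length_range]
  by_contra h1
  push Not at h1
  have h2 := List.findIdx_getElem (xs := List.range N) (p := fun n => !(φ n).isSome)
    (w := by simpa using h1.trans_le hN)
  rw [List.getElem_range, h _ h1] at h2
  simp at h2

theorem comp_run {φ : L → ℕ → Option Bool} {A B : C}
    (h1 : ∀ s n b, φ (pre B s) n = some b → A n = b)
    (h2 : ∀ n, ∀ᶠ s in atTop, (φ (pre B s) n).isSome) :
    Comp (fun σ => run (φ σ) σ.length) B A := by
  refine ⟨fun s => run_ini (h1 s) _, fun m => ?_⟩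
  filter_upwards [(eventually_all_finite (finite_Iio m)).2 fun n _ => h2 n,
    eventually_ge_atTop m] with s hs h3
  exact run_len hs (by simpa using h3)

theorem red_of_sigma {R : Bool → L → ℕ → Prop} (hR : ∀ b, PrimrecRel (R b)) {A B : C}
    (h1 : ∀ b s n, R b (pre B s) n → A n = b) (h2 : ∀ n, ∀ᶠ s in atTop, R (A n) (pre B s) n) :
    Red A B := by
  classical
  refine ⟨_, run_prim (φ := fun σ n => if R false σ n then some false else
    if R true σ n then some true else none) (Primrec.ite (hR false) (Primrec.const _)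
      (Primrec.ite (hR true) (Primrec.const _) (Primrec.const _))).to₂ Primrec.list_length,
    comp_run (fun s n b h => ?_) fun n => ?_⟩
  · split_ifs at h with h3 h4
    · rw [h1 _ _ _ h3]; simpa using h
    · rw [h1 _ _ _ h4]; simpa using h
  · filter_upwards [h2 n] with s hs
    split_ifs with h3 h4
    · rfl
    · rfl
    · cases h : A n <;> simp_all

/-- reading along an index map -/
def mapL (φ : ℕ → ℕ) (σ : L) : L := run (fun n => σ[φ n]?) σ.length

/-- pointwise combination -/
def zipL (t : ℕ → Bool → Bool → Bool) (σ τ : L) : L :=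
  run (fun n => σ[n]?.bind fun a => τ[n]?.map (t n a)) σ.length

theorem mapL_prim {φ : ℕ → ℕ} (h : Primrec φ) : Primrec (mapL φ) :=
  run_prim (Primrec.list_getElem?.comp Primrec.fst (h.comp Primrec.snd)).to₂ Primrec.list_length

theorem zipL_prim {t : ℕ → Bool → Bool → Bool}
    (h : Primrec fun p : ℕ × Bool × Bool => t p.1 p.2.1 p.2.2) : Primrec₂ (zipL t) := by
  refine run_prim (α := L × L) (φ := fun p n => p.1[n]?.bind fun a => p.2[n]?.map (t n a))
    (Primrec.option_bind (Primrec.list_getElem?.comp (Primrec.fst.comp Primrec.fst) Primrec.snd)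
      (Primrec.option_map (Primrec.list_getElem?.comp
        (Primrec.snd.comp (Primrec.fst.comp Primrec.fst)) (Primrec.snd.comp Primrec.fst))
        (h.comp ((Primrec.snd.comp (Primrec.fst.comp Primrec.fst)).pair
          ((Primrec.snd.comp Primrec.fst).pair Primrec.snd))).to₂).to₂).to₂
    (Primrec.list_length.comp Primrec.fst)

theorem mapL_ini (φ : ℕ → ℕ) {σ : L} {A : C} (h : Ini σ A) : Ini (mapL φ σ) fun n => A (φ n) :=
  run_ini (fun _ b hb => h _ b hb) _

theorem zipL_ini (t : ℕ → Bool → Bool → Bool) {σ τ : L} {A B : C} (h : Ini σ A) (h' : Ini τ B) :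
    Ini (zipL t σ τ) fun n => t n (A n) (B n) := by
  refine run_ini (fun n b hb => ?_) _
  simp only [Option.bind_eq_some_iff, Option.map_eq_some_iff] at hb
  obtain ⟨a, h1, c, h2, rfl⟩ := hb
  rw [h n a h1, h' n c h2]

theorem zipL_len (t : ℕ → Bool → Bool → Bool) {σ τ : L} {m : ℕ} (h : m ≤ σ.length)
    (h' : m ≤ τ.length) : m ≤ (zipL t σ τ).length :=
  run_len (fun n hn => by simp [hn.trans_le h, hn.trans_le h']) h

theorem comp_map (φ : ℕ → ℕ) (B : C) : Comp (mapL φ) B fun n => B (φ n) :=
  comp_run (φ := fun σ n => σ[φ n]?) (fun s n b h => ini_pre B s _ b h) fun n =>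
    (eventually_gt_atTop (φ n)).mono fun s hs => by simp [hs]

theorem Comp.zip (t : ℕ → Bool → Bool → Bool) {f g : L → L} {B A A' : C} (hf : Comp f B A)
    (hg : Comp g B A') : Comp (fun σ => zipL t (f σ) (g σ)) B fun n => t n (A n) (A' n) :=
  ⟨fun s => zipL_ini t (hf.1 s) (hg.1 s), fun n =>
    ((hf.2 n).and (hg.2 n)).mono fun _ h => zipL_len t h.1 h.2⟩

/-- join of two reals -/
def J (A B : C) : C := fun n => bif n.bodd then B n.div2 else A n.div2

/-- join of two strings -/
def jn (σ τ : L) : L :=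
  zipL (fun n a b => bif n.bodd then b else a) (mapL Nat.div2 σ) (mapL Nat.div2 τ)

theorem jn_prim : Primrec₂ jn :=
  (zipL_prim (Primrec.cond (Primrec.nat_bodd.comp Primrec.fst) (Primrec.snd.comp Primrec.snd)
    (Primrec.fst.comp Primrec.snd))).comp ((mapL_prim Primrec.nat_div2).comp Primrec.fst)
    ((mapL_prim Primrec.nat_div2).comp Primrec.snd)

theorem jn_ini {σ τ : L} {A B : C} (h : Ini σ A) (h' : Ini τ B) : Ini (jn σ τ) (J A B) :=
  zipL_ini _ (mapL_ini _ h) (mapL_ini _ h')

theorem jn_len {σ τ : L} {m : ℕ} (h : m ≤ σ.length) (h' : m ≤ τ.length) : m ≤ (jn σ τ).length := by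
  have key : ∀ σ : L, m ≤ σ.length → m ≤ (mapL Nat.div2 σ).length := fun σ h =>
    run_len (fun n hn => by
      have : n.div2 < σ.length := by rw [Nat.div2_val]; omega
      simp [this]) h
  exact zipL_len _ (key σ h) (key τ h')

theorem Comp.pair {f g : L → L} {B A A' : C} (hf : Comp f B A) (hg : Comp g B A') :
    Comp (fun σ => jn (f σ) (g σ)) B (J A A') :=
  ⟨fun s => jn_ini (hf.1 s) (hg.1 s), fun n =>
    ((hf.2 n).and (hg.2 n)).mono fun _ h => jn_len h.1 h.2⟩

/-- left half -/
def fstL : L → L := mapL fun n => 2 * n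

/-- right half -/
def sndL : L → L := mapL fun n => 2 * n + 1

theorem fstL_prim : Primrec fstL := mapL_prim Primrec.nat_double

theorem sndL_prim : Primrec sndL := mapL_prim Primrec.nat_double_succ

theorem comp_fst (A B : C) : Comp fstL (J A B) A := by
  simpa [J, fstL] using comp_map (fun n => 2 * n) (J A B)

theorem comp_snd (A B : C) : Comp sndL (J A B) B := by
  simpa [J, sndL] using comp_map (fun n => 2 * n + 1) (J A B)

namespace Red

theorem refl (A : C) : Red A A := ⟨id, Primrec.id, comp_id A⟩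

theorem trans {A B D : C} (h : Red A B) (h' : Red B D) : Red A D :=
  let ⟨_, hf, h1⟩ := h
  let ⟨_, hg, h2⟩ := h'
  ⟨_, hf.comp hg, h1.comp h2⟩

theorem map {A B : C} (h : Red A B) {φ : ℕ → ℕ} (hφ : Primrec φ) : Red (fun n => A (φ n)) B :=
  trans ⟨_, mapL_prim hφ, comp_map φ A⟩ h

theorem zip {A A' B : C} (h : Red A B) (h' : Red A' B) {t : ℕ → Bool → Bool → Bool}
    (ht : Primrec fun p : ℕ × Bool × Bool => t p.1 p.2.1 p.2.2) :
    Red (fun n => t n (A n) (A' n)) B :=
  let ⟨_, hf, h1⟩ := h
  let ⟨_, hg, h2⟩ := h'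
  ⟨_, (zipL_prim ht).comp hf hg, h1.zip t h2⟩

theorem join {A A' B : C} (h : Red A B) (h' : Red A' B) : Red (J A A') B :=
  let ⟨_, hf, h1⟩ := h
  let ⟨_, hg, h2⟩ := h'
  ⟨_, jn_prim.comp hf hg, h1.pair h2⟩

theorem left (A B : C) : Red A (J A B) := ⟨_, fstL_prim, comp_fst A B⟩

theorem right (A B : C) : Red B (J A B) := ⟨_, sndL_prim, comp_snd A B⟩

theorem inl {A B : C} (h : Red A B) (D : C) : Red A (J B D) := h.trans (left _ _)

theorem inr {A B : C} (h : Red A B) (D : C) : Red A (J D B) := h.trans (right _ _)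

theorem add {A A' B : C} (h : Red A B) (h' : Red A' B) : Red (A + A') B :=
  h.zip h' (t := fun _ a b => a + b)
    ((Primrec.dom_bool₂ _).comp (Primrec.fst.comp Primrec.snd) (Primrec.snd.comp Primrec.snd))

theorem mul {A A' B : C} (h : Red A B) (h' : Red A' B) : Red (A * A') B :=
  h.zip h' (t := fun _ a b => a * b)
    ((Primrec.dom_bool₂ _).comp (Primrec.fst.comp Primrec.snd) (Primrec.snd.comp Primrec.snd))

theorem prim {A : C} (h : Primrec A) (B : C) : Red A B :=
  (refl B).zip (refl B) (t := fun n _ _ => A n) (h.comp Primrec.fst)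

end Red

theorem has_sound {f : L → L} {B A : C} (h : Comp f B A) {s : ℕ} (hs : true ∈ f (pre B s)) :
    A ≠ 0 := by
  obtain ⟨i, hi⟩ := List.mem_iff_getElem?.1 hs
  rintro rfl
  simpa using h.1 s i true hi

theorem has_complete {f : L → L} {B A : C} (h : Comp f B A) (hA : A ≠ 0) :
    ∀ᶠ s in atTop, true ∈ f (pre B s) := by
  obtain ⟨n, hn⟩ := Function.ne_iff.1 hA
  have : A n = true := by simpa [Bool.zero_eq_false] using hn
  exact (h.ev n).mono fun s hs => List.mem_iff_getElem?.2 ⟨n, by rw [hs, this]⟩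

theorem C_add_eq (a b : C) : a + b = 0 ↔ a = b := by
  rw [add_eq_zero_iff_eq_neg]; rfl

theorem machine {O Z a : C} {u v : ℕ → C} {Φ1 Φ0 : L → L} (p1 : Primrec Φ1) (p0 : Primrec Φ0)
    (ha : Red a O) (h0 : Red (u 0) O) (h1 : ∀ j, Comp Φ1 (J O (u j)) (u (j + 1)))
    (h2 : ∀ j, Comp Φ0 (J O (u j)) (v j))
    (hZ : ∀ j (ε : Bool), v (2 * j + 1 + ε.toNat) ≠ a ↔ Z j = ε) : Red Z O := by
  obtain ⟨ga, pa, ha⟩ := ha
  obtain ⟨g0, pg, h0⟩ := h0
  let G : L → ℕ → L := fun σ j => (fun τ => Φ1 (jn σ τ))^[j] (g0 σ)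
  have pG : Primrec₂ G := Primrec.nat_iterate Primrec.snd (pg.comp Primrec.fst)
    (p1.comp (jn_prim.comp (Primrec.fst.comp Primrec.fst) Primrec.snd)).to₂
  have hG : ∀ j, Comp (fun σ => G σ j) O (u j) := by
    intro j
    induction j with
    | zero => exact h0
    | succ j ih =>
      simp only [G, Function.iterate_succ_apply']
      exact (h1 j).comp ((comp_id O).pair ih)
  let D : L → ℕ → L := fun σ j => zipL (fun _ a b => a + b) (Φ0 (jn σ (G σ j))) (ga σ)
  have pD : Primrec₂ D := (zipL_prim ((Primrec.dom_bool₂ _).comp (Primrec.fst.comp Primrec.snd)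
    (Primrec.snd.comp Primrec.snd))).comp (p0.comp (jn_prim.comp Primrec.fst pG))
    (pa.comp Primrec.fst)
  have hD : ∀ j, Comp (fun σ => D σ j) O (v j + a) := fun j =>
    ((h2 j).comp ((comp_id O).pair (hG j))).zip _ ha
  refine red_of_sigma (R := fun ε σ j => true ∈ D σ (2 * j + 1 + ε.toNat)) (fun ε => ?_)
    (fun ε s j h => (hZ j ε).1 fun e => has_sound (hD _) h ((C_add_eq _ _).2 e))
    fun j => has_complete (hD _) fun e => (hZ j _).2 rfl ((C_add_eq _ _).1 e)
  have h3 : PrimrecPred fun l : L => ∃ a ∈ l, a = true :=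
    (Primrec.eq.comp Primrec.id (Primrec.const true)).exists_mem_list
  exact (h3.comp (pD.comp Primrec.fst (Primrec.nat_add.comp
    (Primrec.nat_double_succ.comp Primrec.snd) (Primrec.const ε.toNat)))).of_eq fun p => by simp

theorem exists_step (f1 g1 f2 g2 : L → L) (p1 : Primrec f1) (q1 : Primrec g1) (p2 : Primrec f2)
    (q2 : Primrec g2) : ∃ Φ, Primrec Φ ∧ ∀ a b w u c b' c' u' : C, Comp f1 (J u b) c →
      Comp g1 (J a c) b' → Comp f2 (J a b') c' → Comp g2 (J b c') u' →
      Comp Φ (J (J (J a b) w) u) u' := by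
  have pa : Primrec fun σ => fstL (fstL (fstL σ)) := fstL_prim.comp (fstL_prim.comp fstL_prim)
  have pb : Primrec fun σ => sndL (fstL (fstL σ)) := sndL_prim.comp (fstL_prim.comp fstL_prim)
  refine ⟨_, q2.comp (jn_prim.comp pb (p2.comp (jn_prim.comp pa (q1.comp (jn_prim.comp pa
    (p1.comp (jn_prim.comp sndL_prim pb))))))), fun a b w u c b' c' u' h1 h2 h3 h4 => ?_⟩
  have ha := (comp_fst a b).comp ((comp_fst _ w).comp (comp_fst _ u))
  have hb := (comp_snd a b).comp ((comp_fst _ w).comp (comp_fst _ u))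
  exact h4.comp (hb.pair (h3.comp (ha.pair (h2.comp (ha.pair (h1.comp
    ((comp_snd _ u).pair hb)))))))

theorem prim_countable : {f : L → L | Primrec f}.Countable := by
  classical
  have : {f : L → L | Primrec f} ⊆ Set.range fun c : Nat.Partrec.Code => fun σ : L =>
      (((c.eval (Encodable.encode σ)).toOption.bind Encodable.decode).getD [] : L) := by
    intro f hf
    obtain ⟨c, hc⟩ := Nat.Partrec.Code.exists_code.1 hf.to_comp.partrec
    refine ⟨c, funext fun σ => ?_⟩
    simp [hc]
  exact (countable_range _).mono this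

/-- primitive recursive functionals -/
def Fn : Type := {f : L → L // Primrec f}

scoped instance : Countable Fn := prim_countable.to_subtype

theorem red_iff {A B : C} : Red A B ↔ ∃ f : Fn, Comp f.1 B A :=
  ⟨fun ⟨f, h1, h2⟩ => ⟨⟨f, h1⟩, h2⟩, fun ⟨f, h⟩ => ⟨f.1, f.2, h⟩⟩

/-- the real computed by a functional -/
noncomputable def out (f : L → L) (B : C) : C :=
  fun n => by classical exact decide (∃ s, (f (pre B s))[n]? = some true)

theorem Comp.out_eq {f : L → L} {B A : C} (h : Comp f B A) : out f B = A := by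
  funext n
  obtain ⟨s, hs⟩ := (h.ev n).exists
  cases hA : A n
  · simp only [out, decide_eq_false_iff_not, not_exists]
    intro t ht
    simpa [hA] using h.1 t n true ht
  · simp only [out, decide_eq_true_eq]
    exact ⟨s, by rw [hs, hA]⟩

theorem red_countable (B : C) : {A | Red A B}.Countable :=
  (countable_range fun f : Fn => out f.1 B).mono fun _ h => by
    obtain ⟨f, hf⟩ := red_iff.1 h
    exact ⟨f, hf.out_eq⟩

end Vale.Agent.P327
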