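import Vale.Agent.P327.Code

/-! The linear maps used in the masking argument. -/

namespace Vale.Agent.P327

open Filter Set Topology

/-- projection to column zero -/
def L0 (δ : C) : C := fun c => if c.unpair.2 = 0 then δ c else false

/-- shift inside the finite rows -/
def L1 (δ : C) : C := fun c =>
  if c.unpair.2 + 1 < c.unpair.1 then δ (Nat.pair c.unpair.1 (c.unpair.2 + 1)) else false

/-- the three basic maps -/
def LL (i : Fin 3) (δ : C) : C := if i = 0 then L0 δ else if i = 1 then L1 δ else δ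

/-- a real placed in column zero -/
def JJ (k : C) : C := fun c => if c.unpair.2 = 0 then k c.unpair.1 else false

/-- the columns which are switched on -/
def on (Z : C) (i : ℕ) : Prop := Z (i - 1).div2 = (i - 1).bodd

scoped instance (Z : C) (i : ℕ) : Decidable (on Z i) := by unfold on; infer_instance

/-- masking by `Z` -/
def MM (Z h : C) : C := fun c => if on Z c.unpair.2 then h c else false

/-- a column, read along the rows -/
def cl (i : ℕ) (δ : C) : C := fun m => δ (Nat.pair m i)

/-- removing the first entries -/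
def cut (i : ℕ) (η : C) : C := fun m => if i < m then η m else false

/-- agreement on a square -/
def Nr (n : ℕ) (x y : C) : Prop := ∀ c : ℕ, c.unpair.1 < n → c.unpair.2 < n → x c = y c

/-- continuous additive maps -/
structure Hom (f : C → C) : Prop where
  add : ∀ a b, f (a + b) = f a + f b
  cont : Continuous f

theorem Hom.zero {f : C → C} (h : Hom f) : f 0 = 0 := by simpa using h.add 0 0

theorem Hom.comp {f g : C → C} (hf : Hom f) (hg : Hom g) : Hom fun x => f (g x) :=
  ⟨fun a b => by rw [hg.add, hf.add], hf.cont.comp hg.cont⟩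

theorem hom_of (P : ℕ → Prop) [DecidablePred P] (φ : ℕ → ℕ) :
    Hom fun δ c => if P c then δ (φ c) else false :=
  ⟨fun a b => funext fun c => by simp only [Pi.add_apply]; split_ifs <;> rfl,
    continuous_pi fun c => by split_ifs <;> fun_prop⟩

theorem hom_id : Hom id := ⟨fun _ _ => rfl, continuous_id⟩

theorem hom_L1 : Hom L1 := hom_of _ _

theorem hom_LL (i : Fin 3) : Hom (LL i) := by
  unfold LL
  split_ifs
  exacts [hom_of _ id, hom_L1, hom_id]

theorem hom_JJ : Hom JJ := hom_of _ _

theorem hom_MM (Z : C) : Hom (MM Z) := hom_of _ id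

theorem hom_cl (i : ℕ) : Hom (cl i) := ⟨fun _ _ => rfl, by unfold cl; fun_prop⟩

theorem hom_it (j : ℕ) : Hom L1^[j] := by
  induction j with
  | zero => exact hom_id
  | succ j ih => exact ih.comp hom_L1

theorem JJ_inj : Function.Injective JJ := fun a b h => funext fun m => by
  simpa [JJ] using congrFun h (Nat.pair m 0)

theorem cl_surj (i : ℕ) (η : C) : cl i (fun c => η c.unpair.1) = η := by funext m; simp [cl]

theorem C_self (a : C) : a + a = 0 := (C_add_eq a a).2 rfl

theorem Red.LL {A B : C} (h : Red A B) (i : Fin 3) : Red (LL i A) B := by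
  unfold P327.LL
  split_ifs
  · exact h.ite (Red.ff B) (Primrec.eq.comp p2 (Primrec.const 0))
  · exact (h.map (Primrec₂.natPair.comp p1 (Primrec.succ.comp p2))).ite (Red.ff B)
      (Primrec.nat_lt.comp (Primrec.succ.comp p2) p1)
  · exact h

theorem Red.JJ {A B : C} (h : Red A B) : Red (JJ A) B :=
  (h.map p1).ite (Red.ff B) (Primrec.eq.comp p2 (Primrec.const 0))

theorem Red.MM {Z A B : C} (hZ : Red Z B) (h : Red A B) : Red (MM Z A) B :=
  (hZ.map (Primrec.nat_div2.comp (Primrec.pred.comp p2))).zip h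
    (t := fun c z a => if z = (c.unpair.2 - 1).bodd then a else false)
    (Primrec.ite (Primrec.eq.comp (Primrec.fst.comp Primrec.snd)
      (Primrec.nat_bodd.comp (Primrec.pred.comp (p2.comp Primrec.fst))))
      (Primrec.snd.comp Primrec.snd) (Primrec.const _))

theorem nr_open (n : ℕ) (x : C) : IsOpen {y | Nr n y x} := by
  have : {y | Nr n y x} = Set.pi {c | c.unpair.1 < n ∧ c.unpair.2 < n} fun i => {x i} := by
    ext y; simp [Set.mem_pi, Nr]
  rw [this]
  refine isOpen_set_pi ?_ fun i _ => isOpen_discrete _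
  refine (((finite_Iio n).prod (finite_Iio n)).image fun q => Nat.pair q.1 q.2).subset ?_
  exact fun c hc => ⟨c.unpair, hc, Nat.pair_unpair c⟩

theorem nr_sub {U : Set (C × C)} (hU : IsOpen U) {q : C × C} (hq : q ∈ U) :
    ∃ n, ∀ y x, Nr n y q.1 → Nr n x q.2 → (y, x) ∈ U := by
  obtain ⟨A, B, hA, hB, h1, h2, h3⟩ := isOpen_prod_iff.1 hU q.1 q.2 hq
  obtain ⟨n, hn⟩ := cone_sub (hA.mem_nhds h1)
  obtain ⟨m, hm⟩ := cone_sub (hB.mem_nhds h2)
  have key : ∀ {x y : C} {k N : ℕ}, k ≤ N → Nr N x y → ∀ i < k, x i = y i := fun hk h i hi =>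
    h i ((Nat.unpair_left_le i).trans_lt (hi.trans_le hk))
      ((Nat.unpair_right_le i).trans_lt (hi.trans_le hk))
  exact ⟨max n m, fun y x hy hx => h3 ⟨hn y (key (le_max_left _ _) hy),
    hm x (key (le_max_right _ _) hx)⟩⟩

theorem Nr.add {n : ℕ} {x y δ : C} (h : Nr n x y) (hδ : Nr n δ 0) : Nr n (x + δ) y :=
  fun c h1 h2 => by rw [Pi.add_apply, h c h1 h2, hδ c h1 h2]; simp

theorem Nr.sub {n : ℕ} {x x' y : C} (h : Nr n x y) (h' : Nr n x' y) : Nr n (x + x') 0 :=
  fun c h1 h2 => by rw [Pi.add_apply, h c h1 h2, h' c h1 h2]; exact BooleanRing.add_self _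

theorem Nr.L1 {n : ℕ} {δ : C} (h : Nr n δ 0) : Nr n (L1 δ) 0 := by
  intro c h1 h2
  unfold P327.L1
  split_ifs with h3
  · exact h _ (by simpa using h1) (by simpa using h3.trans h1)
  · rfl

theorem Nr.LL {n : ℕ} {δ : C} (h : Nr n δ 0) (i : Fin 3) : Nr n (LL i δ) 0 := by
  unfold P327.LL
  split_ifs
  · intro c h1 h2
    unfold L0
    split_ifs
    exacts [h c h1 h2, rfl]
  exacts [h.L1, h]

theorem Nr.it {n : ℕ} {δ : C} (h : Nr n δ 0) (j : ℕ) : Nr n (P327.L1^[j] δ) 0 := by
  induction j with
  | zero => exact h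
  | succ j ih => rw [Function.iterate_succ_apply']; exact ih.L1

theorem it_apply (δ : C) (j m : ℕ) : ∀ a, (L1^[j + 1] δ) (Nat.pair m a) =
    if a + (j + 1) < m then δ (Nat.pair m (a + (j + 1))) else false := by
  induction j with
  | zero => intro a; simp [L1]
  | succ j ih =>
    intro a
    rw [Function.iterate_succ_apply', L1]
    simp only [Nat.unpair_pair, ih]
    rw [show a + 1 + (j + 1) = a + (j + 1 + 1) by ring]
    split_ifs <;> first | rfl | omega

theorem L0_it (δ : C) (j : ℕ) : LL 0 (L1^[j + 1] δ) = JJ (cut (j + 1) (cl (j + 1) δ)) := by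
  funext c
  simp only [LL, if_true, L0, JJ]
  split_ifs with h
  · conv_lhs => rw [← Nat.pair_unpair c, h, it_apply]
    simp [cut, cl]
  · rfl

theorem cl_payload (Z h k : C) (j : ℕ) :
    cl (j + 1) (MM Z h + JJ k) = if on Z (j + 1) then cl (j + 1) h else 0 := by
  funext m
  by_cases e : on Z (j + 1) <;> simp [cl, MM, JJ, e, ← Bool.zero_eq_false]

theorem cut_zero (i : ℕ) : cut i 0 = 0 := by funext m; simp [cut, ← Bool.zero_eq_false]

theorem cut_ev {P : C × C → Prop} (h : ∀ᶠ q in residual (C × C), P q) (i : ℕ) :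
    ∀ᶠ q in residual (C × C), P (q.1, cut i q.2) := by
  have := eventually_countable_forall.2 fun τ : Fin (i + 1) → Bool =>
    pull (fun q : C × C => q) (fun _ _ => rfl) continuous_id Function.surjective_id
      (0, fun m => if hm : m < i + 1 then τ ⟨m, hm⟩ else false) h
  filter_upwards [this] with q hq
  convert hq fun m => q.2 m using 1
  refine Prod.ext (by simp) (funext fun m => ?_)
  simp only [cut, Prod.snd_add, Pi.add_apply]
  split_ifs
  · omega
  · simp [← Bool.zero_eq_false]
  · exact (BooleanRing.add_self _).symm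
  · omega

end Vale.Agent.P327
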