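import Vale.Agent.P327.Lin

/-! The masking argument. -/

namespace Vale.Agent.P327

open Filter Set Topology

/-- indices of Borel functions -/
abbrev E := Fin 3 × Bool → Fn

/-- colours -/
abbrev Col := E × E × (Fin 3 → E) × (Fin 3 → Fn) × (Fin 3 → Fn) × Fn

/-- the uniform reductions at a pair -/
def Rel (F : E → C → C) (d : Col) (q : C × C) : Prop :=
  (∀ i, Comp (d.2.2.2.1 i).1 (J (F d.1 q.2) (F d.2.1 q.1)) (F (d.2.2.1 i) (LL i q.2 + q.1)) ∧
    Comp (d.2.2.2.2.1 i).1 (J (F d.1 q.2) (F (d.2.2.1 i) (LL i q.2 + q.1))) (F d.2.1 q.1)) ∧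
  Comp d.2.2.2.2.2.1 (J (F d.2.1 q.1) (F (d.2.2.1 2) (q.2 + q.1))) (F d.1 q.2)

theorem meas_rel {F : E → C → C} (hF : ∀ e, Measurable (F e)) (d : Col) :
    MeasurableSet {q | Rel F d q} := by
  have h1 : ∀ e, Measurable fun q : C × C => F e q.1 := fun e => (hF e).comp measurable_fst
  have h2 : ∀ e, Measurable fun q : C × C => F e q.2 := fun e => (hF e).comp measurable_snd
  have h3 : ∀ e i, Measurable fun q : C × C => F e (LL i q.2 + q.1) := fun e i =>
    (hF e).comp (((hom_LL i).cont.comp continuous_snd).add continuous_fst).measurable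
  simp only [Rel, setOf_and, setOf_forall]
  exact (MeasurableSet.iInter fun i => (meas_comp _ (h3 _ i) (meas_J (h2 _) (h1 _))).inter
    (meas_comp _ (h1 _) (meas_J (h2 _) (h3 _ i)))).inter
    (meas_comp _ (h2 _) (meas_J (h1 _) (h3 _ 2)))

theorem colour {p : C → C} (h : Aut p) {F : E → C → C} (hF : ∀ X, ∃ e, F e X = p X) (q : C × C) :
    ∃ d : Col, F d.1 q.2 = p q.2 ∧ F d.2.1 q.1 = p q.1 ∧ Rel F d q := by
  choose e he using hF
  have key : ∀ {X Y U : C}, Red U (J X Y) → ∃ f : Fn, Comp f.1 (J (p X) (p Y)) (p U) :=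
    fun hU => red_iff.1 (((h.le _ _).2 hU).trans (h.join _ _))
  have h1 := fun i => key (((Red.left q.2 q.1).LL i).add (Red.right _ _))
  have h2 : ∀ i, ∃ f : Fn, Comp f.1 (J (p q.2) (p (LL i q.2 + q.1))) (p q.1) := fun i => by
    refine key ?_
    have := ((Red.left q.2 (LL i q.2 + q.1)).LL i).add (Red.right _ _)
    rwa [← add_assoc, C_self, zero_add] at this
  have h3 : ∃ f : Fn, Comp f.1 (J (p q.1) (p (q.2 + q.1))) (p q.2) := by
    refine key ?_
    have := (Red.right q.1 (q.2 + q.1)).add (Red.left _ _)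
    rwa [add_assoc, C_self, add_zero] at this
  choose f hf using h1
  choose g hg using h2
  obtain ⟨g', hg'⟩ := h3
  refine ⟨(e q.2, e q.1, fun i => e (LL i q.2 + q.1), f, g, g'), he _, he _, ?_⟩
  simp only [Rel, he]
  exact ⟨fun i => ⟨hf i, hg i⟩, by rw [show LL 2 q.2 = q.2 from rfl, he]; exact hg'⟩

theorem step (F : E → C → C) (d : Col) (i : Fin 3) : ∃ Φ, Primrec Φ ∧ ∀ x y δ w : C,
    Rel F d (y, x + δ) → Rel F d (y + LL i δ, x) → Rel F d (y, x + LL i δ) →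
    Comp Φ (J (J (J (F d.1 x) (F d.2.1 y)) w) (F d.1 (x + δ))) (F d.1 (x + LL i δ)) := by
  obtain ⟨Φ, h1, h2⟩ := exists_step _ _ _ _ (d.2.2.2.1 i).2 (d.2.2.2.2.1 i).2 (d.2.2.2.1 2).2
    d.2.2.2.2.2.2
  refine ⟨Φ, h1, fun x y δ w r1 r2 r3 => h2 _ _ _ _ _ _ _ _ (r1.1 i).1 ?_ (r2.1 2).1 ?_⟩
  · have := (r2.1 i).2
    dsimp only at this ⊢
    rwa [(hom_LL i).add, add_assoc, add_comm (LL i δ)]
  · have := r3.2
    dsimp only at this ⊢
    rwa [show LL 2 x = x from rfl, add_comm y, ← add_assoc]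

/-- the iterated category filter -/
def FF (Z : C) : Filter (C × C) :=
  map (fun ω : C × C × C × C => (ω.1, ω.2.1 + MM Z ω.2.2.1 + JJ ω.2.2.2))
    ((residual C).curry ((residual C).curry ((residual C).curry (residual C))))

scoped instance (Z : C) : CountableInterFilter (FF Z) := by unfold FF; infer_instance

theorem freq_FF {Z : C} {P : C × C → Prop} : (∃ᶠ q in FF Z, P q) ↔ ∃ᶠ y in residual C,
    ∃ᶠ x in residual C, ∃ᶠ h in residual C, ∃ᶠ k in residual C, P (y, x + MM Z h + JJ k) := by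
  simp only [FF, frequently_map, frequently_curry_iff]

scoped instance (Z : C) : (FF Z).NeBot := by
  rw [← frequently_true_iff_neBot, freq_FF]
  simp [res_ne]

theorem ku4 {P : C × C × C × C → Prop} (h : ∀ᶠ ω in residual (C × C × C × C), P ω) :
    ∀ᶠ y in residual C, ∀ᶠ x in residual C, ∀ᶠ h in residual C, ∀ᶠ k in residual C,
      P (y, x, h, k) := (ku h).mono fun _ h => (ku h).mono fun _ h => ku h

theorem FF_le (Z : C) : FF Z ≤ residual (C × C) := by
  intro s hs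
  have := pull (fun ω : C × C × C × C => (ω.1, ω.2.1 + MM Z ω.2.2.1 + JJ ω.2.2.2))
    (fun a b => by
      simp only [Prod.fst_add, Prod.snd_add, (hom_MM Z).add, hom_JJ.add, Prod.mk_add_mk]
      congr 1; abel)
    (by have := (hom_MM Z).cont; have := hom_JJ.cont; fun_prop)
    (fun q => ⟨(q.1, q.2, 0, 0), by simp [(hom_MM Z).zero, hom_JJ.zero]⟩) 0 hs
  change ∀ᶠ q in FF Z, q ∈ s
  simpa only [FF, eventually_map, eventually_curry_iff, add_zero] using! ku4 this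

theorem test {p : C → C} (h : Aut p) {G : C → C} (hG : Measurable G) {Z : C} {X : Set C}
    (hX : IsOpen X) (hL : ∀ V, IsOpen V → V.Nonempty → V ⊆ X →
      ∃ᶠ q in FF Z, G q.2 = p q.2 ∧ q.2 ∈ V) :
    ∀ᶠ q in residual (C × C), q.1 ∈ X → G (q.1 + JJ q.2) ≠ G q.1 := by
  have cJ := hom_JJ.cont
  have cM := (hom_MM Z).cont
  have hm : MeasurableSet {q : C × C | q.1 ∈ X ∧ G (q.1 + JJ q.2) = G q.1} :=
    (measurable_fst hX.measurableSet).inter (measurableSet_eq_fun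
      (hG.comp (Continuous.measurable (by fun_prop))) (hG.comp measurable_fst))
  obtain ⟨U, hU, hE⟩ := hm.residualEq_isOpen
  have hE' : ∀ᶠ q in residual (C × C), (q.1 ∈ X ∧ G (q.1 + JJ q.2) = G q.1) ↔ q ∈ U := hE.mem_iff
  rcases U.eq_empty_or_nonempty with rfl | hne
  · filter_upwards [hE'] with q hq h1 h2
    exact hq.1 ⟨h1, h2⟩
  exfalso
  obtain ⟨⟨x1, η⟩, h1, h2⟩ := ex_open hE' hU hne
  have h3 := freq_FF.1 (hL ({x | (x, η) ∈ U} ∩ X)
    ((hU.preimage (Continuous.prodMk_left η)).inter hX) ⟨x1, h1, (h2.2 h1).1⟩ inter_subset_right)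
  have h4 := ku4 (pull (fun ω : C × C × C × C =>
      (ω.1 + MM Z ω.2.1 + JJ ω.2.2.2, ω.2.2.2 + ω.2.2.1))
    (fun a b => by
      simp only [Prod.fst_add, Prod.snd_add, (hom_MM Z).add, hom_JJ.add, Prod.mk_add_mk]
      congr 1 <;> abel) (by fun_prop)
    (fun q => ⟨(q.1, 0, q.2, 0), by simp [(hom_MM Z).zero, hom_JJ.zero]⟩) (0, η) hE')
  obtain ⟨y, h3⟩ := h3.exists
  obtain ⟨x, h3, h4⟩ := (h3.and_eventually h4).exists
  obtain ⟨g, h3, h4⟩ := (h3.and_eventually h4).exists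
  set z := x + MM Z g with hz
  obtain ⟨k0, h5, h6⟩ := loc1 h3
  obtain ⟨A, B, hA, hB, h7, h8, h9⟩ := isOpen_prod_iff.1 (hU.preimage
    (f := fun r : C × C => (z + JJ r.2, r.2 + r.1 + η)) (by fun_prop)) k0 k0
    (by simpa [C_self] using h5.2.1)
  obtain ⟨k1, h10, h11⟩ := ex_open h4 hA ⟨_, h7⟩
  have hc : {x' | p x' = G (z + JJ (k1 + η))}.Countable := by
    rcases {x' | p x' = G (z + JJ (k1 + η))}.eq_empty_or_nonempty with e | ⟨v, hv⟩
    · rw [e]; exact countable_empty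
    · refine (red_countable v).mono fun x' hx' => (h.le _ _).1 ?_
      rw [show p x' = p v from hx'.trans hv.symm]; exact Red.refl _
  have hc' := hc.preimage_of_injOn (f := fun k => z + JJ k)
    fun a _ b _ e => JJ_inj (add_left_cancel e)
  obtain ⟨k, ⟨h12, h13⟩, h14, h15⟩ :=
    ((h6 B hB h8).and_eventually (h11.and (countable_ev hc'))).exists
  have h16 := (h14.2 (by simpa using h9 (mk_mem_prod h10 h13))).2
  refine h15 ?_
  simp only [Prod.mk_add_mk, add_zero] at h16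
  rw [add_assoc, ← hom_JJ.add, ← add_assoc k, ← add_assoc k, C_self, zero_add] at h16
  exact h12.1.symm.trans h16.symm

/-- six reals -/
abbrev C6 := C × C × C × C × C × C

theorem ku6 {P : C6 → Prop} (h : ∀ᶠ ω in residual C6, P ω) :
    ∀ᶠ y in residual C, ∀ᶠ x in residual C, ∀ᶠ h in residual C, ∀ᶠ k in residual C,
      ∀ᶠ h' in residual C, ∀ᶠ k' in residual C, P (y, x, h, k, h', k') :=
  (ku h).mono fun _ h => (ku h).mono fun _ h => ku4 h

/-- the mask -/
def x0 (Z : C) (ω : C6) : C := ω.2.1 + MM Z ω.2.2.1 + JJ ω.2.2.2.1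

/-- the payload -/
def dl (Z : C) (ω : C6) : C :=
  MM Z (ω.2.2.1 + ω.2.2.2.2.1) + JJ (ω.2.2.2.1 + ω.2.2.2.2.2)

theorem x0_add (Z : C) (a b : C6) : x0 Z (a + b) = x0 Z a + x0 Z b := by
  simp only [x0, Prod.fst_add, Prod.snd_add, (hom_MM Z).add, hom_JJ.add]; abel

theorem dl_add (Z : C) (a b : C6) : dl Z (a + b) = dl Z a + dl Z b := by
  simp only [dl, Prod.fst_add, Prod.snd_add, (hom_MM Z).add, hom_JJ.add]; abel

theorem x0_cont (Z : C) : Continuous (x0 Z) := by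
  have := (hom_MM Z).cont; have := hom_JJ.cont; unfold x0; fun_prop

theorem dl_cont (Z : C) : Continuous (dl Z) := by
  have := (hom_MM Z).cont; have := hom_JJ.cont; unfold dl; fun_prop

theorem pull6 (Z : C) {f g : C → C} (hf : Hom f) (hg : Hom g) {P : C × C → Prop}
    (h : ∀ᶠ q in residual (C × C), P q) :
    ∀ᶠ ω in residual C6, P (ω.1 + f (dl Z ω), x0 Z ω + g (dl Z ω)) := by
  have := x0_cont Z; have := dl_cont Z; have := hf.cont; have := hg.cont
  simpa using pull (fun ω : C6 => (ω.1 + f (dl Z ω), x0 Z ω + g (dl Z ω)))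
    (fun a b => by
      simp only [x0_add, dl_add, hf.add, hg.add, Prod.fst_add, Prod.mk_add_mk]
      congr 1 <;> abel) (by fun_prop)
    (fun q => ⟨(q.1, q.2, 0), by
      simp [x0, dl, (hom_MM Z).zero, hom_JJ.zero, hf.zero, hg.zero]⟩) 0 h

theorem pull6' (Z : C) (i : ℕ) {P : C × C → Prop} (h : ∀ᶠ q in residual (C × C), P q) :
    ∀ᶠ ω in residual C6, P (x0 Z ω, cl i (ω.2.2.1 + ω.2.2.2.2.1)) := by
  have := x0_cont Z; have := (hom_cl i).cont
  simpa using pull (fun ω : C6 => (x0 Z ω, cl i (ω.2.2.1 + ω.2.2.2.2.1)))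
    (fun a b => by
      simp only [x0_add, (hom_cl i).add, Prod.fst_add, Prod.snd_add, Prod.mk_add_mk]
      congr 1; abel) (by fun_prop)
    (fun q => ⟨(0, q.1, 0, 0, fun c => q.2 c.unpair.1, 0), by
      simp [x0, (hom_MM Z).zero, hom_JJ.zero, cl_surj]⟩) 0 h

theorem hom_zero : Hom fun _ => 0 := ⟨by simp, continuous_const⟩

theorem Aut.red {p : C → C} (h : Aut p) (W : C) : Red W (p W) := by
  by_contra hW
  set Z := p W with hZ
  obtain ⟨F, hF, hFp⟩ := h.borel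
  obtain ⟨d, hd⟩ := freq_countable (F := FF Z) (colour h hFp)
  obtain ⟨U, hU, ⟨q0, hq0⟩, hR, hL⟩ := loc (FF_le Z) hd (meas_rel hF d).baireMeasurableSet
    fun _ hq => hq.2.2
  obtain ⟨n, hn⟩ := nr_sub hU hq0
  have hL' : ∀ V, IsOpen V → V.Nonempty → V ⊆ {x | Nr n x q0.2} → ∃ᶠ q in FF Z,
      (F d.1 q.2 = p q.2 ∧ F d.2.1 q.1 = p q.1 ∧ Rel F d q) ∧ Nr n q.1 q0.1 ∧ q.2 ∈ V :=
    fun V hV hne hs => hL ({y | Nr n y q0.1} ×ˢ V) ((nr_open _ _).prod hV)
      (Nonempty.prod ⟨q0.1, fun _ _ _ => rfl⟩ hne) fun q hq => hn _ _ hq.1 (hs hq.2)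
  have hT := test h (hF d.1) (nr_open n q0.2) fun V h1 h2 h3 =>
    (hL' V h1 h2 h3).mono fun q hq => ⟨hq.1.1, hq.2.2⟩
  have e1 := eventually_countable_forall.2 fun t : Fin 3 × ℕ =>
    (pull6 Z hom_zero ((hom_LL t.1).comp (hom_it t.2)) hR).and
      (pull6 Z ((hom_LL t.1).comp (hom_it t.2)) hom_zero hR)
  have e2 := eventually_countable_forall.2 fun i : ℕ => pull6' Z i (cut_ev hT i)
  have e3 := ku6 (e1.and e2)
  have f1 := freq_FF.1 (hL' _ (nr_open n q0.2) ⟨q0.2, fun _ _ _ => rfl⟩ subset_rfl)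
  obtain ⟨y, f1, e3, a1⟩ := (f1.and_eventually (e3.and (avoid hW))).exists
  obtain ⟨x, f1, e3, a1⟩ := (f1.and_eventually (e3.and (avoid a1))).exists
  obtain ⟨g, f2, e3, a1⟩ := (f1.and_eventually (e3.and (avoid a1))).exists
  obtain ⟨k, f2, e3, a1⟩ := (f2.and_eventually (e3.and (avoid a1))).exists
  obtain ⟨g', f3, e3, a1⟩ := (f1.and_eventually (e3.and (avoid a1))).exists
  obtain ⟨k', f3, ⟨e1, e2⟩, a1⟩ := (f3.and_eventually (e3.and (avoid a1))).exists
  set ω : C6 := (y, x, g, k, g', k') with hω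
  have b1 : x + MM Z g + JJ k = x0 Z ω := rfl
  have b2 : x + MM Z g' + JJ k' = x0 Z ω + dl Z ω := by
    simp only [hω, x0, dl, (hom_MM Z).add, hom_JJ.add]
    calc _ = x + MM Z g' + JJ k' + (MM Z g + MM Z g) + (JJ k + JJ k) := by simp [C_self]
      _ = _ := by abel
  rw [b1] at f2
  rw [b2] at f3
  dsimp only at f2 f3 e1 e2
  have n1 : Nr n (dl Z ω) 0 := by
    have := Nr.sub f2.2.2 f3.2.2
    rwa [← add_assoc, C_self, zero_add] at this
  have r1 : ∀ i j, Rel F d (y, x0 Z ω + LL i (L1^[j] (dl Z ω))) := fun i j => by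
    simpa using (e1 (i, j)).1 (hn _ _ (by simpa using f2.2.1) (Nr.add f2.2.2 ((n1.it j).LL i)))
  have r2 : ∀ i j, Rel F d (y + LL i (L1^[j] (dl Z ω)), x0 Z ω) := fun i j => by
    simpa using (e1 (i, j)).2 (hn _ _ (Nr.add f2.2.1 ((n1.it j).LL i)) (by simpa using f2.2.2))
  obtain ⟨Φ0, p0, s0⟩ := step F d 0
  obtain ⟨Φ1, p1, s1⟩ := step F d 1
  have key : Red Z (J (J (F d.1 (x0 Z ω)) (F d.2.1 y)) (F d.1 (x0 Z ω + dl Z ω))) := by
    refine machine (u := fun j => F d.1 (x0 Z ω + L1^[j] (dl Z ω)))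
      (v := fun j => F d.1 (x0 Z ω + LL 0 (L1^[j] (dl Z ω)))) p1 p0 ((Red.left _ _).inl _)
      (Red.right _ _) (fun j => ?_) (fun j => s0 _ _ _ _ (r1 2 j) (r2 0 j) (r1 0 j))
      fun j ε => ?_
    · rw [Function.iterate_succ_apply']
      exact s1 _ _ _ _ (r1 2 j) (r2 1 j) (r1 1 j)
    · rw [show 2 * j + 1 + ε.toNat = 2 * j + ε.toNat + 1 by ring, L0_it, dl, cl_payload]
      have e : on Z (2 * j + ε.toNat + 1) ↔ Z j = ε := by cases ε <;> simp [on]
      rw [← e]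
      split_ifs with h1
      · exact iff_of_true (e2 _ f2.2.2) h1
      · simp [cut_zero, hom_JJ.zero, h1]
  rw [f2.1.1, f2.1.2.1, f3.1.1] at key
  refine a1 (((h.le _ _).1 (key.trans ((((h.join' _ _).inl _).join (Red.right _ _)).trans
    (h.join' _ _)))).trans ?_)
  have rk' := Red.right (J (J (J (J (J Z y) x) g) k) g') k'
  have t1 := Red.left (J (J (J (J (J Z y) x) g) k) g') k'
  have rg' := (Red.right _ _).trans t1
  have t2 := (Red.left _ _).trans t1
  have rk := (Red.right _ _).trans t2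
  have t3 := (Red.left _ _).trans t2
  have rg := (Red.right _ _).trans t3
  have t4 := (Red.left _ _).trans t3
  have rx := (Red.right _ _).trans t4
  have t5 := (Red.left _ _).trans t4
  have ry := (Red.right _ _).trans t5
  have rZ := (Red.left _ _).trans t5
  rw [← b2, ← b1]
  exact (((rx.add (rZ.MM rg)).add rk.JJ).join ry).join ((rx.add (rZ.MM rg')).add rk'.JJ)

theorem Aut.rigid {p : C → C} (h : Aut p) (W : C) : Red W (p W) ∧ Red (p W) W := by
  choose r hr using h.surj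
  have h' : Aut r := ⟨fun X Y => by
    rw [← h.le]
    exact ⟨fun h1 => (hr X).2.trans (h1.trans (hr Y).1), fun h1 => (hr X).1.trans
      (h1.trans (hr Y).2)⟩, fun Y => ⟨p Y, (h.le _ _).1 (hr _).1, (h.le _ _).1 (hr _).2⟩⟩
  exact ⟨h.red W, (h'.red _).trans ((h.le _ _).1 (hr _).1)⟩

end Vale.Agent.P327
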