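import Vale.Agent.P327.Fn
import Vale.Agent.P327.Defs

/-! Normal form: reducibility through functionals is Turing reducibility. -/

namespace Vale.Agent.P327

open Filter Set Encodable

/-- the oracle of a real -/
def orc (B : C) : ℕ →. ℕ := fun n => Part.some (B n).toNat

theorem approx {B : C} {f : ℕ →. ℕ} (hf : Nat.RecursiveIn {orc B} f) :
    ∃ φ : L → ℕ → Option ℕ, Primrec₂ φ ∧ (∀ s n v, φ (pre B s) n = some v → v ∈ f n) ∧
      ∀ n v, v ∈ f n → ∀ᶠ s in atTop, φ (pre B s) n = some v := by
  have tot : ∀ g : ℕ → ℕ, Primrec g → ∃ φ : L → ℕ → Option ℕ, Primrec₂ φ ∧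
      (∀ s n v, φ (pre B s) n = some v → v ∈ (g : ℕ →. ℕ) n) ∧
      ∀ n v, v ∈ (g : ℕ →. ℕ) n → ∀ᶠ s in atTop, φ (pre B s) n = some v := fun g hg =>
    ⟨fun _ n => some (g n), (Primrec.option_some.comp (hg.comp Primrec.snd)).to₂,
      fun s n v h => by simpa [eq_comm] using h, fun n v h => Eventually.of_forall fun _ => by
        simpa [eq_comm] using h⟩
  induction hf with
  | zero => exact tot (fun _ => 0) (Primrec.const 0)
  | succ => exact tot _ Primrec.succ
  | left => exact tot _ (Primrec.fst.comp Primrec.unpair)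
  | right => exact tot _ (Primrec.snd.comp Primrec.unpair)
  | oracle g hg =>
    obtain rfl : g = orc B := hg
    refine ⟨fun σ n => σ[n]?.map Bool.toNat, (Primrec.option_map Primrec.list_getElem?
      ((Primrec.dom_bool _).comp Primrec.snd).to₂).to₂, fun s n v h => ?_, fun n v h => ?_⟩
    · obtain ⟨b, h1, rfl⟩ := Option.map_eq_some_iff.1 h
      simp [orc, ini_pre B s n b h1]
    · filter_upwards [eventually_gt_atTop n] with s hs
      rw [pre_get, if_pos hs]
      simpa [orc, eq_comm] using h
  | pair _ _ ih1 ih2 =>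
    obtain ⟨φ, p1, s1, c1⟩ := ih1
    obtain ⟨ψ, p2, s2, c2⟩ := ih2
    refine ⟨fun σ n => (φ σ n).bind fun a => (ψ σ n).map (Nat.pair a),
      (Primrec.option_bind p1 (Primrec.option_map (p2.comp (Primrec.fst.comp Primrec.fst)
        (Primrec.snd.comp Primrec.fst)) (Primrec₂.natPair.comp (Primrec.snd.comp Primrec.fst)
        Primrec.snd).to₂).to₂).to₂, fun s n v h => ?_, fun n v h => ?_⟩
    · simp only [Option.bind_eq_some_iff, Option.map_eq_some_iff] at h
      obtain ⟨a, h1, b, h2, rfl⟩ := h
      simp only [Seq.seq, Part.map_eq_map, Part.bind_eq_bind, Part.mem_bind_iff, Part.mem_map_iff]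
      exact ⟨_, ⟨a, s1 _ _ _ h1, rfl⟩, b, s2 _ _ _ h2, rfl⟩
    · simp only [Seq.seq, Part.map_eq_map, Part.bind_eq_bind, Part.mem_bind_iff,
        Part.mem_map_iff] at h
      obtain ⟨_, ⟨a, h1, rfl⟩, b, h2, rfl⟩ := h
      filter_upwards [c1 _ _ h1, c2 _ _ h2] with s e1 e2
      simp [e1, e2]
  | comp _ _ ih1 ih2 =>
    obtain ⟨φ, p1, s1, c1⟩ := ih1
    obtain ⟨ψ, p2, s2, c2⟩ := ih2
    refine ⟨fun σ n => (ψ σ n).bind (φ σ), (Primrec.option_bind p2
      (p1.comp (Primrec.fst.comp Primrec.fst) Primrec.snd).to₂).to₂, fun s n v h => ?_,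
      fun n v h => ?_⟩
    · obtain ⟨a, h1, h2⟩ := Option.bind_eq_some_iff.1 h
      exact Part.mem_bind_iff.2 ⟨a, s2 _ _ _ h1, s1 _ _ _ h2⟩
    · obtain ⟨a, h1, h2⟩ := Part.mem_bind_iff.1 h
      filter_upwards [c2 _ _ h1, c1 _ _ h2] with s e1 e2
      simp [e1, e2]
  | @prec f h _ _ ih1 ih2 =>
    obtain ⟨φ, p1, s1, c1⟩ := ih1
    obtain ⟨ψ, p2, s2, c2⟩ := ih2
    refine ⟨fun σ p => Nat.rec (motive := fun _ => Option ℕ) (φ σ p.unpair.1)
      (fun y IH => IH.bind fun i => ψ σ (Nat.pair p.unpair.1 (Nat.pair y i))) p.unpair.2,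
      ?_, fun s p => ?_, fun p => ?_⟩
    · have a1 : Primrec fun q : L × ℕ => q.2.unpair.1 :=
        Primrec.fst.comp (Primrec.unpair.comp Primrec.snd)
      exact (Primrec.nat_rec' (Primrec.snd.comp (Primrec.unpair.comp Primrec.snd))
        (p1.comp Primrec.fst a1) (h := fun q (r : ℕ × Option ℕ) =>
          r.2.bind fun i => ψ q.1 (Nat.pair q.2.unpair.1 (Nat.pair r.1 i)))
        (Primrec.option_bind (Primrec.snd.comp Primrec.snd)
          (p2.comp (Primrec.fst.comp (Primrec.fst.comp Primrec.fst))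
            (Primrec₂.natPair.comp (a1.comp (Primrec.fst.comp Primrec.fst))
              (Primrec₂.natPair.comp (Primrec.fst.comp (Primrec.snd.comp Primrec.fst))
                Primrec.snd))).to₂).to₂).to₂
    · dsimp only
      induction p.unpair.2 with
      | zero => exact s1 _ _
      | succ n ih =>
        intro v hv
        obtain ⟨a, h1, h2⟩ := Option.bind_eq_some_iff.1 hv
        exact Part.mem_bind_iff.2 ⟨a, ih _ h1, s2 _ _ _ h2⟩
    · dsimp only
      induction p.unpair.2 with
      | zero => exact c1 _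
      | succ n ih =>
        intro v hv
        obtain ⟨a, h1, h2⟩ := Part.mem_bind_iff.1 hv
        filter_upwards [ih _ h1, c2 _ _ h2] with s e1 e2
        exact Option.bind_eq_some_iff.2 ⟨a, e1, e2⟩
  | @rfind f _ ih =>
    obtain ⟨φ, p1, s1, c1⟩ := ih
    let m : L → ℕ → ℕ := fun σ a =>
      (List.range σ.length).findIdx fun k => (φ σ (Nat.pair a k)).getD 0 == 0
    have pm : Primrec₂ m := (Primrec.list_findIdx
      (Primrec.list_range.comp (Primrec.list_length.comp Primrec.fst))
      (Primrec.beq.comp (Primrec.option_getD.comp (p1.comp (Primrec.fst.comp Primrec.fst)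
        (Primrec₂.natPair.comp (Primrec.snd.comp Primrec.fst) Primrec.snd)) (Primrec.const 0))
        (Primrec.const 0)).to₂).to₂
    refine ⟨fun σ a => if φ σ (Nat.pair a (m σ a)) = some 0 then some (m σ a) else none,
      (Primrec.ite (Primrec.eq.comp (p1.comp Primrec.fst (Primrec₂.natPair.comp Primrec.snd pm))
        (Primrec.const _)) (Primrec.option_some.comp pm) (Primrec.const _)).to₂,
      fun s a v h => ?_, fun a v h => ?_⟩
    · dsimp only at h
      split_ifs at h with h1
      obtain rfl := Option.some.inj h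
      refine Nat.mem_rfind.2 ⟨?_, fun {k} hk => ?_⟩
      · exact (Part.mem_map_iff _).2 ⟨0, s1 _ _ _ h1, by simp⟩
      · have h2 := List.not_of_lt_findIdx hk
        rw [List.getElem_range] at h2
        cases e : φ (pre B s) (Nat.pair a k) with
        | none => simp [e] at h2
        | some w => exact (Part.mem_map_iff _).2 ⟨w, s1 _ _ _ e, by simpa [e] using h2⟩
    · obtain ⟨h1, h2⟩ := Nat.mem_rfind.1 h
      obtain ⟨w, h3, h4⟩ := (Part.mem_map_iff _).1 h1
      obtain rfl : w = 0 := by simpa using h4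
      have h5 : ∀ k ∈ Iio v, ∀ᶠ s in atTop,
          ((φ (pre B s) (Nat.pair a k)).getD 0 == 0) = false := by
        intro k hk
        obtain ⟨w, h6, h7⟩ := (Part.mem_map_iff _).1 (h2 hk)
        filter_upwards [c1 _ _ h6] with s hs
        simpa [hs] using h7
      filter_upwards [(eventually_all_finite (finite_Iio v)).2 h5, c1 _ _ h3,
        eventually_gt_atTop v] with s e1 e2 e3
      have : m (pre B s) a = v := by
        refine (List.findIdx_eq (by simpa using e3)).2 ⟨by simp [e2], fun k hk => ?_⟩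
        rw [List.getElem_range]; exact e1 k hk
      simp [this, e2]

theorem red_of_rec {A B : C} (h : Nat.RecursiveIn {orc B} (orc A)) : Red A B := by
  obtain ⟨φ, p, s1, c1⟩ := approx h
  refine red_of_sigma (R := fun b σ n => φ σ n = some b.toNat)
    (fun b => Primrec.eq.comp p (Primrec.const _)) (fun b s n h => ?_)
    fun n => c1 _ _ (by simp [orc])
  have := s1 _ _ _ h
  cases b <;> cases e : A n <;> simp_all [orc]

/-- total functions recursive in the oracle -/
def RI (B : C) (g : ℕ → ℕ) : Prop := Nat.RecursiveIn {orc B} fun n => Part.some (g n)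

theorem RI.prim {B : C} {g : ℕ → ℕ} (h : Primrec g) : RI B g :=
  Nat.Primrec.recursiveIn (Primrec.nat_iff.1 h)

theorem RI.comp {B : C} {g h : ℕ → ℕ} (hg : RI B g) (hh : RI B h) : RI B fun n => g (h n) :=
  (Nat.RecursiveIn.comp hg hh).of_eq fun n => by simp

theorem RI.pair {B : C} {g h : ℕ → ℕ} (hg : RI B g) (hh : RI B h) :
    RI B fun n => Nat.pair (g n) (h n) :=
  (Nat.RecursiveIn.pair hg hh).of_eq fun n => by simp [Seq.seq]

theorem ri_pre (B : C) : RI B fun s => encode (pre B s) := by
  let st : ℕ → ℕ := fun q => encode (((decode q.unpair.1).getD [] : L) ++ [q.unpair.2 == 1])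
  have pst : Primrec st := Primrec.encode.comp (Primrec.list_concat.comp
    (Primrec.option_getD.comp (Primrec.decode.comp (Primrec.fst.comp Primrec.unpair))
      (Primrec.const [])) (Primrec.beq.comp (Primrec.snd.comp Primrec.unpair) (Primrec.const 1)))
  have o : RI B fun n => (B n).toNat := Nat.RecursiveIn.oracle _ rfl
  have h1 : RI B fun q => st (Nat.pair q.unpair.2.unpair.2 (B q.unpair.2.unpair.1).toNat) :=
    (RI.prim pst).comp ((RI.prim (Primrec.snd.comp (Primrec.unpair.comp
      (Primrec.snd.comp Primrec.unpair)))).pair (o.comp (RI.prim (Primrec.fst.comp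
      (Primrec.unpair.comp (Primrec.snd.comp Primrec.unpair))))))
  have h2 := Nat.RecursiveIn.prec (RI.prim (B := B) (Primrec.const (encode ([] : L)))) h1
  refine (Nat.RecursiveIn.comp h2 (RI.prim (B := B)
    (Primrec₂.natPair.comp (Primrec.const 0) Primrec.id))).of_eq fun s => ?_
  simp only [id, Part.bind_eq_bind, Part.bind_some, Nat.unpair_pair]
  induction s with
  | zero => rfl
  | succ s ih =>
    dsimp only
    rw [ih]
    simp only [Part.bind_some, st, Nat.unpair_pair, encodek, Option.getD_some]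
    cases h : B s <;> simp [pre, List.range_succ, h]

theorem rec_of_red {A B : C} (h : Red A B) : Nat.RecursiveIn {orc B} (orc A) := by
  obtain ⟨f, pf, h⟩ := h
  let g : ℕ → Option Bool := fun q => (f ((decode q.unpair.2).getD []))[q.unpair.1]?
  have pg : Primrec g := Primrec.list_getElem?.comp (pf.comp (Primrec.option_getD.comp
    (Primrec.decode.comp (Primrec.snd.comp Primrec.unpair)) (Primrec.const [])))
    (Primrec.fst.comp Primrec.unpair)
  have h0 : RI B fun q => Nat.pair q.unpair.1 (encode (pre B q.unpair.2)) :=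
    (RI.prim (Primrec.fst.comp Primrec.unpair)).pair
      ((ri_pre B).comp (RI.prim (Primrec.snd.comp Primrec.unpair)))
  have h1 := (RI.prim (B := B) (g := fun q => bif (g q).isSome then 0 else 1)
    (Primrec.cond (Primrec.option_isSome.comp pg) (Primrec.const _) (Primrec.const _))).comp h0
  have h2 := (RI.prim (B := B) (g := fun q => ((g q).getD false).toNat)
    ((Primrec.dom_bool _).comp (Primrec.option_getD.comp pg (Primrec.const _)))).comp h0
  have h3 := Nat.RecursiveIn.comp h2 (Nat.RecursiveIn.pair (RI.prim (B := B) Primrec.id)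
    (Nat.RecursiveIn.rfind h1))
  refine h3.of_eq fun n => Part.eq_some_iff.2 ?_
  have ex : ∃ s, ((f (pre B s))[n]?).isSome := by
    obtain ⟨s, hs⟩ := (h.ev n).exists
    exact ⟨s, by simp [hs]⟩
  classical
  obtain ⟨b, hb⟩ := Option.isSome_iff_exists.1 (Nat.find_spec ex)
  have hm := fun m => Nat.find_min ex (m := m)
  generalize Nat.find ex = k at hb hm
  simp only [Seq.seq, Part.map_eq_map, Part.bind_eq_bind, Part.mem_bind_iff, Part.mem_map_iff]
  refine ⟨Nat.pair n k, ⟨_, ⟨n, by simp, rfl⟩, _, Nat.mem_rfind.2 ⟨?_, ?_⟩, rfl⟩, ?_⟩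
  · simp [g, hb]
  · intro m hk
    have := hm m hk
    cases e : (f (pre B m))[n]? <;> simp_all [g]
  · simp [g, hb, h.1 _ _ _ hb, orc]

theorem chi_eq (A : C) : chi {n | A n = true} = orc A := by
  funext n
  cases h : A n <;> simp [chi, orc, h]

theorem deg_le {A B : C} : deg {n | A n = true} ≤ deg {n | B n = true} ↔ Red A B := by
  change TuringReducible _ _ ↔ _
  rw [chi_eq, chi_eq, TuringReducible, RecursiveIn.iff_nat]
  exact ⟨red_of_rec, rec_of_red⟩

end Vale.Agent.P327
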